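import Vale.Agent.P004H.H792.Q11

/-!
# P004, `X_0(11)`: size of `F` at the cusps; `F` as a cusp form
-/

open UpperHalfPlane hiding I
open Complex Filter Topology Matrix.SpecialLinearGroup CongruenceSubgroup
open scoped Real MatrixGroups ModularForm Manifold

namespace Vale.Agent.P004H.H792

/-- `PF q = q * PG q` -/
noncomputable def PG (q : ℂ) : ℂ :=
  (∏' n, (1 - q ^ (n + 1))) ^ 2 * (∏' n, (1 - (q ^ 11) ^ (n + 1))) ^ 2

theorem PF_eq (q : ℂ) : PF q = q * PG q := rfl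

theorem PG_zero : PG 0 = 1 := by
  simp [PG]

theorem PG_cont : ContinuousAt PG 0 := by
  have h1 : ContinuousAt (fun q : ℂ => ∏' n, (1 - q ^ (n + 1))) 0 :=
    (ModularForm.differentiableOn_tprod_one_sub_pow.differentiableAt
      (Metric.isOpen_ball.mem_nhds (Metric.mem_ball_self one_pos))).continuousAt
  have h2 : ContinuousAt (fun q : ℂ => ∏' n, (1 - (q ^ 11) ^ (n + 1))) 0 := by
    have h3 : ContinuousAt (fun q : ℂ => ∏' n, (1 - q ^ (n + 1))) ((0 : ℂ) ^ 11) := by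
      rw [zero_pow (by norm_num)]
      exact h1
    exact ContinuousAt.comp (f := fun q : ℂ => q ^ 11) h3 (by fun_prop)
  exact (h1.pow 2).mul (h2.pow 2)

theorem PG_bd : ∃ δ : ℝ, 0 < δ ∧ ∀ q : ℂ, ‖q‖ < δ → 1 / 2 ≤ ‖PG q‖ ∧ ‖PG q‖ ≤ 2 := by
  have h1 := PG_cont.norm
  rw [ContinuousAt, PG_zero, norm_one] at h1
  have h2 := h1.eventually (Icc_mem_nhds (show (1 / 2 : ℝ) < 1 by norm_num)
    (show (1 : ℝ) < 2 by norm_num))
  obtain ⟨δ, hδ, h3⟩ := Metric.eventually_nhds_iff.1 h2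
  exact ⟨δ, hδ, fun q hq => h3 (by simpa using hq)⟩

/-- **upper and lower bound near `i ∞`** -/
theorem Fc_size : ∃ Y : ℝ, 0 < Y ∧ ∀ z : ℂ, Y ≤ z.im →
    1 / 2 * Real.exp (-(2 * π * z.im)) ≤ ‖Fc z‖ ∧ ‖Fc z‖ ≤ 2 * Real.exp (-(2 * π * z.im)) := by
  obtain ⟨δ, hδ, h⟩ := PG_bd
  have h1 : Tendsto (fun y : ℝ => Real.exp (-(2 * π * y))) atTop (𝓝 0) := by
    refine Real.tendsto_exp_atBot.comp (tendsto_neg_atTop_atBot.comp ?_)
    exact tendsto_id.const_mul_atTop (by positivity)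
  obtain ⟨Y, hY⟩ := eventually_atTop.1 (h1.eventually (gt_mem_nhds hδ))
  refine ⟨max Y 1, lt_of_lt_of_le one_pos (le_max_right _ _), fun z hz => ?_⟩
  have h2 : ‖qq z‖ < δ := by
    rw [norm_qq]
    exact hY _ ((le_max_left _ _).trans hz)
  obtain ⟨h3, h4⟩ := h _ h2
  rw [Fc_eq_PF, PF_eq, norm_mul, norm_qq]
  have h5 := (Real.exp_pos (-(2 * π * z.im))).le
  constructor <;> nlinarith

theorem F_size : ∃ Y : ℝ, 0 < Y ∧ ∀ z : ℍ, Y ≤ z.im →
    1 / 2 * Real.exp (-(2 * π * z.im)) ≤ ‖F z‖ ∧ ‖F z‖ ≤ 2 * Real.exp (-(2 * π * z.im)) := by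
  obtain ⟨Y, hY, h⟩ := Fc_size
  exact ⟨Y, hY, fun z hz => h z hz⟩

theorem F_slash_S (z : ℍ) : (F ∣[(2 : ℤ)] ModularGroup.S) z = -(1 / 11) * Fc (z / 11) := by
  rw [SlashInvariantForm.slash_S_apply, F_eq]
  have h0 := im_ne z.2
  have h1 : ((⟨(-(z : ℂ))⁻¹, z.im_inv_neg_coe_pos⟩ : ℍ) : ℂ) = -1 / z := by
    change (-(z : ℂ))⁻¹ = -1 / z
    rw [inv_neg, neg_div, one_div]
  rw [h1, Fc_S z.2, zpow_neg]
  have h2 : (z : ℂ) ^ (2 : ℤ) = (z : ℂ) ^ 2 := by norm_cast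
  rw [h2]
  field_simp

/-- **upper and lower bound near the cusp `0`** -/
theorem F_size_S : ∃ Y : ℝ, 0 < Y ∧ ∀ z : ℍ, Y ≤ z.im →
    1 / 22 * Real.exp (-(2 * π * z.im / 11)) ≤ ‖(F ∣[(2 : ℤ)] ModularGroup.S) z‖ ∧
      ‖(F ∣[(2 : ℤ)] ModularGroup.S) z‖ ≤ 2 / 11 * Real.exp (-(2 * π * z.im / 11)) := by
  obtain ⟨Y, hY, h⟩ := Fc_size
  refine ⟨11 * Y, by positivity, fun z hz => ?_⟩
  have h1 : ((z : ℂ) / 11).im = z.im / 11 := by
    rw [show (z : ℂ) / 11 = ((1 / 11 : ℝ) : ℂ) * z by push_cast; ring, im_ofReal_mul]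
    change 1 / 11 * z.im = z.im / 11
    ring
  obtain ⟨h2, h3⟩ := h ((z : ℂ) / 11) (by rw [h1]; linarith)
  rw [h1, show 2 * π * (z.im / 11) = 2 * π * z.im / 11 by ring] at h2 h3
  rw [F_slash_S, norm_mul]
  have h4 : ‖(-(1 / 11) : ℂ)‖ = 1 / 11 := by
    rw [norm_neg]
    norm_num
  rw [h4]
  constructor <;> linarith

theorem zero_of_size {g : ℍ → ℂ} {c K Y : ℝ} (hc : 0 < c)
    (h : ∀ z : ℍ, Y ≤ z.im → ‖g z‖ ≤ K * Real.exp (-(c * z.im))) : IsZeroAtImInfty g := by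
  rw [isZeroAtImInfty_iff]
  intro ε hε
  have h1 : Tendsto (fun y : ℝ => K * Real.exp (-(c * y))) atTop (𝓝 0) := by
    have h2 : Tendsto (fun y : ℝ => Real.exp (-(c * y))) atTop (𝓝 0) :=
      Real.tendsto_exp_atBot.comp (tendsto_neg_atTop_atBot.comp (tendsto_id.const_mul_atTop hc))
    simpa using h2.const_mul K
  obtain ⟨Y', hY'⟩ := eventually_atTop.1 (h1.eventually (ge_mem_nhds hε))
  exact ⟨max Y Y', fun z hz => (h z ((le_max_left _ _).trans hz)).trans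
    (hY' _ ((le_max_right _ _).trans hz))⟩

theorem F_zero : IsZeroAtImInfty F := by
  obtain ⟨Y, _, h⟩ := F_size
  exact zero_of_size (c := 2 * π) (by positivity) fun z hz => (h z hz).2

theorem F_zero_S : IsZeroAtImInfty (F ∣[(2 : ℤ)] ModularGroup.S) := by
  obtain ⟨Y, _, h⟩ := F_size_S
  refine zero_of_size (c := 2 * π / 11) (by positivity) (K := 2 / 11) (Y := Y) fun z hz => ?_
  rw [show 2 * π / 11 * z.im = 2 * π * z.im / 11 by ring]
  exact (h z hz).2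

/-- translation by `T ^ j` -/
theorem slash_T (g : ℍ → ℂ) (k j : ℤ) (z : ℍ) :
    (g ∣[k] (ModularGroup.T ^ j)) z = g ((j : ℝ) +ᵥ z) := by
  rw [ModularForm.SL_slash_apply, UpperHalfPlane.modular_T_zpow_smul]
  have h1 : (ModularGroup.T ^ j : SL(2, ℤ)) 1 0 = 0 := by
    rw [ModularGroup.coe_T_zpow]
    rfl
  have h2 : (ModularGroup.T ^ j : SL(2, ℤ)) 1 1 = 1 := by
    rw [ModularGroup.coe_T_zpow]
    rfl
  have h : UpperHalfPlane.denom (ModularGroup.T ^ j : SL(2, ℤ)) z = 1 := by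
    rw [ModularGroup.denom_apply, h1, h2]
    simp
  rw [h, one_zpow, mul_one]

/-- **the two cusps of `Γ₀(11)`** : every element of `SL(2, ℤ)` is in `Γ₀(11)` or in
`Γ₀(11) S T ^ j` -/
theorem coset (g : SL(2, ℤ)) : g ∈ Gamma0 11 ∨
    ∃ (h : SL(2, ℤ)) (j : ℤ), h ∈ Gamma0 11 ∧ g = h * ModularGroup.S * ModularGroup.T ^ j := by
  by_cases hc : ((g 1 0 : ℤ) : ZMod 11) = 0
  · exact Or.inl (by rw [Gamma0_mem]; exact hc)
  · refine Or.inr ?_
    have hp : Fact (Nat.Prime 11) := ⟨by norm_num⟩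
    obtain ⟨j, hj⟩ : ∃ j : ℤ, (j : ZMod 11) * ((g 1 0 : ℤ) : ZMod 11) = ((g 1 1 : ℤ) : ZMod 11) := by
      refine ⟨((((g 1 1 : ℤ) : ZMod 11) * ((g 1 0 : ℤ) : ZMod 11)⁻¹).val : ℤ), ?_⟩
      rw [Int.cast_natCast, ZMod.natCast_zmod_val, mul_assoc, inv_mul_cancel₀ hc, mul_one]
    refine ⟨g * (ModularGroup.S * ModularGroup.T ^ j)⁻¹, j, ?_, by group⟩
    rw [Gamma0_mem]
    have h1 : (g * (ModularGroup.S * ModularGroup.T ^ j)⁻¹) 1 0 = j * g 1 0 - g 1 1 := by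
      have h2 : ((ModularGroup.S * ModularGroup.T ^ j)⁻¹ : SL(2, ℤ)) =
          ModularGroup.T ^ (-j) * ModularGroup.S⁻¹ := by
        rw [mul_inv_rev, zpow_neg]
      rw [h2]
      simp [Matrix.SpecialLinearGroup.coe_mul, ModularGroup.coe_T_zpow, ModularGroup.coe_S,
        Matrix.mul_apply, Fin.sum_univ_two, -zpow_neg, Matrix.SpecialLinearGroup.coe_inv,
        Matrix.adjugate_fin_two]
      ring
    rw [h1]
    push_cast
    rw [hj, sub_self]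

theorem im_vadd (j : ℤ) (z : ℍ) : ((j : ℝ) +ᵥ z).im = z.im := by
  rw [UpperHalfPlane.vadd_im]

theorem slash_T_zero {g : ℍ → ℂ} (hg : IsZeroAtImInfty g) (k j : ℤ) :
    IsZeroAtImInfty (g ∣[k] (ModularGroup.T ^ j)) := by
  rw [isZeroAtImInfty_iff] at *
  intro ε hε
  obtain ⟨A, hA⟩ := hg ε hε
  refine ⟨A, fun z hz => ?_⟩
  rw [slash_T]
  exact hA _ (by rw [im_vadd]; exact hz)

theorem slash_T_bdd {g : ℍ → ℂ} (hg : IsBoundedAtImInfty g) (k j : ℤ) :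
    IsBoundedAtImInfty (g ∣[k] (ModularGroup.T ^ j)) := by
  rw [isBoundedAtImInfty_iff] at *
  obtain ⟨M, A, hA⟩ := hg
  refine ⟨M, A, fun z hz => ?_⟩
  rw [slash_T]
  exact hA _ (by rw [im_vadd]; exact hz)

/-- a `Γ₀(11)`-invariant function which is zero at `i ∞` and, after `S`, at `i ∞`, is zero at all
cusps -/
theorem zero_cusps {g : ℍ → ℂ} {k : ℤ} (hg : ∀ h ∈ Gamma0 11, g ∣[k] h = g)
    (h1 : IsZeroAtImInfty g) (h2 : IsZeroAtImInfty (g ∣[k] ModularGroup.S)) (s : SL(2, ℤ)) :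
    IsZeroAtImInfty (g ∣[k] s) := by
  rcases coset s with h | ⟨h, j, hh, rfl⟩
  · rw [hg s h]
    exact h1
  · rw [SlashAction.slash_mul, SlashAction.slash_mul, hg h hh]
    exact slash_T_zero h2 k j

/-- the same for boundedness -/
theorem bdd_cusps {g : ℍ → ℂ} {k : ℤ} (hg : ∀ h ∈ Gamma0 11, g ∣[k] h = g)
    (h1 : IsBoundedAtImInfty g) (h2 : IsBoundedAtImInfty (g ∣[k] ModularGroup.S)) (s : SL(2, ℤ)) :
    IsBoundedAtImInfty (g ∣[k] s) := by
  rcases coset s with h | ⟨h, j, hh, rfl⟩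
  · rw [hg s h]
    exact h1
  · rw [SlashAction.slash_mul, SlashAction.slash_mul, hg h hh]
    exact slash_T_bdd h2 k j

theorem F_mdiff : MDiff F := by
  rw [UpperHalfPlane.mdifferentiable_iff]
  intro z hz
  have h := (Fc_diff (show 0 < z.im from hz)).differentiableWithinAt (s := upperHalfPlaneSet)
  refine h.congr (fun w hw => ?_) ?_
  · change F (ofComplex w) = Fc w
    rw [F_eq, ofComplex_apply_of_im_pos hw]
  · change F (ofComplex z) = Fc z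
    rw [F_eq, ofComplex_apply_of_im_pos hz]

/-- a cusp form from the conditions at the two cusps -/
noncomputable def mkCusp (g : ℍ → ℂ) (k : ℤ) (hol : MDiff g) (hg : ∀ h ∈ Gamma0 11, g ∣[k] h = g)
    (h1 : IsZeroAtImInfty g) (h2 : IsZeroAtImInfty (g ∣[k] ModularGroup.S)) :
    CuspForm (Gamma0 11) k where
  toFun := g
  slash_action_eq' := by
    rintro _ ⟨h, hh, rfl⟩
    exact hg h hh
  holo' := hol
  zero_at_cusps' hc := by
    rw [Subgroup.IsArithmetic.isCusp_iff_isCusp_SL2Z] at hc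
    rw [OnePoint.isZeroAt_iff_forall_SL2Z hc]
    intro s _
    exact zero_cusps hg h1 h2 s

/-- a modular form from the conditions at the two cusps -/
noncomputable def mkMod (g : ℍ → ℂ) (k : ℤ) (hol : MDiff g) (hg : ∀ h ∈ Gamma0 11, g ∣[k] h = g)
    (h1 : IsBoundedAtImInfty g) (h2 : IsBoundedAtImInfty (g ∣[k] ModularGroup.S)) :
    ModularForm (Gamma0 11) k where
  toFun := g
  slash_action_eq' := by
    rintro _ ⟨h, hh, rfl⟩
    exact hg h hh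
  holo' := hol
  bdd_at_cusps' hc := by
    rw [Subgroup.IsArithmetic.isCusp_iff_isCusp_SL2Z] at hc
    rw [OnePoint.isBoundedAt_iff_forall_SL2Z hc]
    intro s _
    exact bdd_cusps hg h1 h2 s

/-- **`F = eta(z)^2 eta(11 z)^2` as a cusp form** -/
noncomputable def F11 : CuspForm (Gamma0 11) 2 := mkCusp F 2 F_mdiff F_slash F_zero F_zero_S

theorem F11_apply (z : ℍ) : F11 z = F z := rfl

end Vale.Agent.P004H.H792
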