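import Vale.Agent.P004H.H792.Mult

/-!
# P004, `X_0(11)`: the form `F = eta(z)^2 eta(11 z)^2`
-/

open UpperHalfPlane hiding I
open Complex Matrix.SpecialLinearGroup CongruenceSubgroup
open scoped Real MatrixGroups ModularForm Manifold

namespace Vale.Agent.P004H.H792

/-- `eta(z)^2 eta(11 z)^2`, `z : ℂ` -/
noncomputable def Fc (z : ℂ) : ℂ := ModularForm.eta z ^ 2 * ModularForm.eta (11 * z) ^ 2

/-- `eta(z)^2 eta(11 z)^2` on the upper half plane -/
noncomputable def F (z : ℍ) : ℂ := ModularForm.eta z ^ 2 * ModularForm.eta (11 * z) ^ 2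

theorem F_eq (z : ℍ) : F z = Fc z := rfl

theorem Fc_eq (z : ℂ) : Fc z = ee z * ee (11 * z) := rfl

theorem im11 {z : ℂ} (hz : 0 < z.im) : 0 < (11 * z).im := by
  have h : (11 * z).im = 11 * z.im := by simp
  rw [h]
  positivity

theorem im_div11 {z : ℂ} (hz : 0 < z.im) : 0 < (z / 11).im := by
  have h : (z / 11).im = z.im / 11 := by
    rw [show z / 11 = ((1 / 11 : ℝ) : ℂ) * z by push_cast; ring, im_ofReal_mul]
    ring
  rw [h]
  positivity

theorem Fc_ne {z : ℂ} (hz : 0 < z.im) : Fc z ≠ 0 :=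
  mul_ne_zero (pow_ne_zero 2 (ModularForm.eta_ne_zero hz))
    (pow_ne_zero 2 (ModularForm.eta_ne_zero (im11 hz)))

theorem F_ne (z : ℍ) : F z ≠ 0 := Fc_ne z.2

theorem Fc_diff {z : ℂ} (hz : 0 < z.im) : DifferentiableAt ℂ Fc z := by
  have h1 : DifferentiableAt ℂ ModularForm.eta z :=
    ModularForm.differentiableAt_eta_of_mem_upperHalfPlaneSet hz
  have h2 : DifferentiableAt ℂ (fun w : ℂ => ModularForm.eta (11 * w)) z :=
    DifferentiableAt.comp z (ModularForm.differentiableAt_eta_of_mem_upperHalfPlaneSet (im11 hz))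
      (by fun_prop)
  exact (h1.pow 2).mul (h2.pow 2)

theorem psi_sum3 : ∀ a b c d : ZMod 4, a * d - b * c = 1 →
    (1 - c ^ 2) * (b * d + 3 * (c - 1) * d + c + 3) + c * (a + d - 3) +
      ((1 - (-c) ^ 2) * (-b * d + 3 * (-c - 1) * d + -c + 3) + -c * (a + d - 3)) = 0 := by
  decide

theorem psi_sum4 : ∀ a b c d : ZMod 3, a * d - b * c = 1 →
    (1 - c ^ 2) * (b * d + 3 * (c - 1) * d + c + 3) + c * (a + d - 3) +
      ((1 - (-c) ^ 2) * (-b * d + 3 * (-c - 1) * d + -c + 3) + -c * (a + d - 3)) = 0 := by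
  decide

theorem psi_11 {a b c d : ℤ} (h : a * d - b * (11 * c) = 1) :
    (12 : ℤ) ∣ psi a b (11 * c) d + psi a (11 * b) c d := by
  apply dvd12
  · have h11 : (11 : ZMod 3) = -1 := by decide
    have h1 := psi_sum4 a b (11 * c) d (by exact_mod_cast congrArg (Int.cast : ℤ → ZMod 3) h)
    rw [← h1]
    simp only [psi]
    push_cast
    rw [h11]
    ring
  · have h11 : (11 : ZMod 4) = -1 := by decide
    have h1 := psi_sum3 a b (11 * c) d (by exact_mod_cast congrArg (Int.cast : ℤ → ZMod 4) h)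
    rw [← h1]
    simp only [psi]
    push_cast
    rw [h11]
    ring

/-- the transformation law of `eta ^ 2`, with explicit entries -/
theorem ee_mob {a b c d : ℤ} (h : a * d - b * c = 1) {z : ℂ} (hz : 0 < z.im) :
    ee ((a * z + b) / (c * z + d)) = zt ^ psi a b c d * (c * z + d) * ee z := by
  have h1 := tr_all ⟨!![a, b; c, d], by rw [Matrix.det_fin_two_of]; exact h⟩ z hz
  simpa using h1

theorem den_ne' {a b c d : ℤ} (h : a * d - b * c = 1) {z : ℂ} (hz : 0 < z.im) :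
    (c : ℂ) * z + d ≠ 0 := by
  have h1 := den_ne ⟨!![a, b; c, d], by rw [Matrix.det_fin_two_of]; exact h⟩ hz
  simpa using h1

/-- **invariance under `Γ₀(11)`**, with explicit entries -/
theorem Fc_mob {a b c d : ℤ} (h : a * d - b * (11 * c) = 1) {z : ℂ} (hz : 0 < z.im) :
    Fc ((a * z + b) / ((11 * c : ℤ) * z + d)) = ((11 * c : ℤ) * z + d) ^ 2 * Fc z := by
  have h1 := ee_mob h hz
  have h2 := ee_mob (a := a) (b := 11 * b) (c := c) (d := d) (by linarith) (im11 hz)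
  have h3 := den_ne' h hz
  have h4 := den_ne' (a := a) (b := 11 * b) (c := c) (d := d) (by linarith) (im11 hz)
  rw [Fc_eq, Fc_eq, h1]
  rw [show 11 * ((a * z + b) / (((11 * c : ℤ) : ℂ) * z + d)) =
    (a * (11 * z) + ((11 * b : ℤ) : ℂ)) / (c * (11 * z) + d) by
      rw [mul_div_assoc', div_eq_div_iff h3 h4]
      push_cast
      ring]
  rw [h2]
  have h5 : zt ^ psi a b (11 * c) d * zt ^ psi a (11 * b) c d = 1 := by
    rw [← zpow_add₀ zt_ne]
    have h6 := zt_congr (k := psi a b (11 * c) d + psi a (11 * b) c d) (l := 0)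
      (by rw [sub_zero]; exact psi_11 h)
    rw [h6, zpow_zero]
  have h7 : (c : ℂ) * (11 * z) + d = ((11 * c : ℤ) : ℂ) * z + d := by push_cast; ring
  rw [h7]
  calc _ = (zt ^ psi a b (11 * c) d * zt ^ psi a (11 * b) c d) *
      ((((11 * c : ℤ) : ℂ) * z + d) ^ 2 * (ee z * ee (11 * z))) := by ring
    _ = _ := by rw [h5, one_mul]

/-- **the Fricke involution** -/
theorem Fc_W {z : ℂ} (hz : 0 < z.im) : Fc (-1 / (11 * z)) = -11 * z ^ 2 * Fc z := by
  have h0 := im_ne hz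
  have h1 := ee_S (im11 hz)
  have h2 := ee_S hz
  rw [Fc_eq, Fc_eq, h1, show 11 * (-1 / (11 * z)) = -1 / z by field_simp, h2]
  linear_combination (11 * z ^ 2 * ee z * ee (11 * z)) * I_sq

theorem F_W (z : ℍ) : Fc (-1 / (11 * z)) = -11 * (z : ℂ) ^ 2 * F z := Fc_W z.2

/-- the value at `-1/z` -/
theorem Fc_S {z : ℂ} (hz : 0 < z.im) : Fc (-1 / z) = -(1 / 11) * z ^ 2 * Fc (z / 11) := by
  have h1 := Fc_W (im_div11 hz)
  rw [show 11 * (z / 11) = z by ring] at h1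
  rw [h1]
  ring

theorem F_slash_mob (g : SL(2, ℤ)) (hg : g ∈ Gamma0 11) {z : ℂ} (hz : 0 < z.im) :
    Fc (((g 0 0 : ℤ) * z + (g 0 1 : ℤ)) / ((g 1 0 : ℤ) * z + (g 1 1 : ℤ))) =
      ((g 1 0 : ℤ) * z + (g 1 1 : ℤ)) ^ 2 * Fc z := by
  rw [Gamma0_mem] at hg
  obtain ⟨c, hc⟩ := (ZMod.intCast_zmod_eq_zero_iff_dvd (g 1 0) 11).1 hg
  have h := det_eq g
  rw [hc] at h ⊢
  exact Fc_mob h hz

theorem F_slash (g : SL(2, ℤ)) (hg : g ∈ Gamma0 11) : F ∣[(2 : ℤ)] g = F := by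
  ext z
  rw [ModularForm.SL_slash_apply]
  have h := F_slash_mob g hg z.2
  have h1 : ((g • z : ℍ) : ℂ) = ((g 0 0 : ℤ) * z + (g 0 1 : ℤ)) / ((g 1 0 : ℤ) * z + (g 1 1 : ℤ)) := by
    rw [UpperHalfPlane.specialLinearGroup_apply]
    simp
  have h2 : UpperHalfPlane.denom g z = ((g 1 0 : ℤ) * z + (g 1 1 : ℤ)) := by
    simp [UpperHalfPlane.denom]
  rw [F_eq, h1, h, h2, F_eq]
  have h3 := den_ne g z.2
  rw [zpow_neg]
  field_simp

end Vale.Agent.P004H.H792
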