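import Mathlib

/-!
# P004, `X_0(11)`: Taylor coefficients of the Euler product `∏ (1 - q ^ (n + 1))`
-/

open Filter Topology Complex

namespace Vale.Agent.P004H.H792

theorem iteratedDeriv_poly (p : Polynomial ℂ) (m : ℕ) :
    iteratedDeriv m (fun x : ℂ => p.eval x) = fun x => (Polynomial.derivative^[m] p).eval x := by
  induction m with
  | zero => simp
  | succ m ih =>
    rw [iteratedDeriv_succ, ih]
    funext x
    rw [Polynomial.deriv, Function.iterate_succ_apply']

theorem iteratedDeriv_poly_zero (p : Polynomial ℂ) (m : ℕ) :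
    iteratedDeriv m (fun x : ℂ => p.eval x) 0 = m.factorial * p.coeff m := by
  rw [iteratedDeriv_poly]
  change (Polynomial.derivative^[m] p).eval 0 = _
  have h : (Polynomial.derivative^[m] p).eval 0 = (Polynomial.derivative^[m] p).coeff 0 :=
    (Polynomial.coeff_zero_eq_eval_zero _).symm
  rw [h, Polynomial.coeff_iterate_derivative]
  simp [Nat.descFactorial_self]

/-- the finite products -/
noncomputable def pp (s : Finset ℕ) : Polynomial ℂ := ∏ i ∈ s, (1 - Polynomial.X ^ (i + 1))

theorem pp_eval (s : Finset ℕ) (q : ℂ) : (pp s).eval q = ∏ i ∈ s, (1 - q ^ (i + 1)) := by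
  rw [pp, Polynomial.eval_prod]
  simp

theorem pp_coeff (s : Finset ℕ) (m : ℕ) :
    (pp s).coeff m = (∏ i ∈ s, (1 - PowerSeries.X ^ (i + 1) : PowerSeries ℂ)).coeff m := by
  rw [← Polynomial.coeff_coe]
  congr 1
  rw [pp, ← Polynomial.coeToPowerSeries.ringHom_apply, map_prod]
  simp

/-- the coefficients of the Euler product -/
noncomputable def ec (m : ℕ) : ℤ := (PowerSeries.pentagonalSeries ℤ).coeff m

theorem ec_cast (m : ℕ) : (ec m : ℂ) = (PowerSeries.pentagonalSeries ℂ).coeff m := by
  unfold ec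
  by_cases h : m ∈ Set.range pentagonal
  · obtain ⟨k, rfl⟩ := h
    simp
  · rw [PowerSeries.coeff_pentagonalSeries_eq_zero ℤ h,
      PowerSeries.coeff_pentagonalSeries_eq_zero ℂ h, Int.cast_zero]

theorem tendsto_iter (m : ℕ) : TendstoLocallyUniformlyOn
    (fun (s : Finset ℕ) => iteratedDeriv m (fun q : ℂ => (pp s).eval q))
    (iteratedDeriv m (fun q : ℂ => ∏' n, (1 - q ^ (n + 1)))) atTop (Metric.ball 0 1) := by
  induction m with
  | zero =>
    simp only [iteratedDeriv_zero]
    have h := ModularForm.multipliableLocallyUniformlyOn_one_sub_pow.hasProdLocallyUniformlyOn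
    rw [hasProdLocallyUniformlyOn_iff_tendstoLocallyUniformlyOn] at h
    refine h.congr fun s q _ => ?_
    simp only [pp_eval]
  | succ m ih =>
    simp only [iteratedDeriv_succ]
    refine ih.deriv ?_ Metric.isOpen_ball
    refine Eventually.of_forall fun s => ?_
    rw [iteratedDeriv_poly]
    exact (Polynomial.differentiable _).differentiableOn

theorem iter_zero (m : ℕ) :
    iteratedDeriv m (fun q : ℂ => ∏' n, (1 - q ^ (n + 1))) 0 = (m.factorial : ℂ) * (ec m : ℂ) := by
  have h1 := (tendsto_iter m).tendsto_at (Metric.mem_ball_self one_pos)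
  refine tendsto_nhds_unique h1 ?_
  refine tendsto_nhds_of_eventually_eq ?_
  filter_upwards [PowerSeries.coeff_prod_one_sub_X_pow_eventually_eq ℂ m] with s hs
  rw [iteratedDeriv_poly_zero, pp_coeff, hs, ec_cast]

theorem hasSum_euler {q : ℂ} (hq : ‖q‖ < 1) :
    HasSum (fun n : ℕ => (ec n : ℂ) * q ^ n) (∏' n, (1 - q ^ (n + 1))) := by
  have h := Complex.hasSum_taylorSeries_on_ball (c := 0) (r := 1)
    ModularForm.differentiableOn_tprod_one_sub_pow (z := q) (by simpa using hq)
  refine h.congr_fun fun n => ?_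
  rw [iter_zero, sub_zero, smul_eq_mul, smul_eq_mul]
  have h1 : (n.factorial : ℂ) ≠ 0 := Nat.cast_ne_zero.2 (Nat.factorial_ne_zero n)
  field_simp


/-! ### power series with integer coefficients and their sums -/

/-- `g` is the sum of the power series `p` on the unit disc -/
def Ev (p : PowerSeries ℤ) (g : ℂ → ℂ) : Prop :=
  ∀ q : ℂ, ‖q‖ < 1 → HasSum (fun n : ℕ => (p.coeff n : ℂ) * q ^ n) (g q)

theorem Ev.mul {p r : PowerSeries ℤ} {g h : ℂ → ℂ} (h1 : Ev p g) (h2 : Ev r h) :
    Ev (p * r) (fun q => g q * h q) := by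
  intro q hq
  have s1 := (h1 q hq).summable.norm
  have s2 := (h2 q hq).summable.norm
  have h3 := summable_norm_sum_mul_antidiagonal_of_summable_norm s1 s2
  have h4 := tsum_mul_tsum_eq_tsum_sum_antidiagonal_of_summable_norm s1 s2
  rw [(h1 q hq).tsum_eq, (h2 q hq).tsum_eq] at h4
  have h5 : ∀ n : ℕ, ∑ kl ∈ Finset.HasAntidiagonal.antidiagonal n,
      ((p.coeff kl.1 : ℂ) * q ^ kl.1) * ((r.coeff kl.2 : ℂ) * q ^ kl.2) =
      (((p * r).coeff n : ℤ) : ℂ) * q ^ n := by
    intro n
    rw [PowerSeries.coeff_mul, Int.cast_sum, Finset.sum_mul]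
    refine Finset.sum_congr rfl fun kl hkl => ?_
    rw [Finset.HasAntidiagonal.mem_antidiagonal] at hkl
    rw [← hkl, pow_add]
    push_cast
    ring
  simp only [h5] at h3 h4
  change HasSum _ (g q * h q)
  rw [h4]
  exact h3.of_norm.hasSum

theorem Ev.X : Ev PowerSeries.X (fun q => q) := by
  intro q _
  have h := hasSum_ite_eq (1 : ℕ) q
  refine h.congr_fun fun n => ?_
  rw [PowerSeries.coeff_X]
  split_ifs with h1
  · subst h1
    simp
  · simp

theorem Ev.sq {p : PowerSeries ℤ} {g : ℂ → ℂ} (h1 : Ev p g) : Ev (p ^ 2) (fun q => g q ^ 2) := by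
  have h := h1.mul h1
  rw [← pow_two] at h
  intro q hq
  change HasSum _ (g q ^ 2)
  rw [pow_two (g q)]
  exact h q hq

/-- the Euler product as a power series -/
noncomputable def EP : PowerSeries ℤ := PowerSeries.pentagonalSeries ℤ

/-- substitution `q → q ^ 11` -/
noncomputable def EP11 : PowerSeries ℤ := .mk fun n => if 11 ∣ n then EP.coeff (n / 11) else 0

theorem Ev.EP : Ev EP (fun q => ∏' n, (1 - q ^ (n + 1))) := fun _ hq => hasSum_euler hq

theorem Ev.EP11 : Ev EP11 (fun q => ∏' n, (1 - (q ^ 11) ^ (n + 1))) := by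
  intro q hq
  have h1 : ‖q ^ 11‖ < 1 := by
    rw [norm_pow]
    exact pow_lt_one₀ (norm_nonneg _) hq (by norm_num)
  have h := hasSum_euler h1
  have h2 : Function.Injective (fun n : ℕ => 11 * n) := fun a b hab => by
    simpa using hab
  rw [← h2.hasSum_iff]
  · refine h.congr_fun fun n => ?_
    simp only [Function.comp_apply, Vale.Agent.P004H.H792.EP11, PowerSeries.coeff_mk,
      dvd_mul_right, if_true]
    rw [Nat.mul_div_cancel_left n (by norm_num), pow_mul]
    rfl
  · intro n hn
    have h3 : ¬ 11 ∣ n := fun ⟨k, hk⟩ => hn ⟨k, hk.symm⟩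
    simp [Vale.Agent.P004H.H792.EP11, h3]

end Vale.Agent.P004H.H792
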