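import Vale.Agent.P004H.H792.F11
import Vale.Agent.P004H.H792.Euler

/-!
# P004, `X_0(11)`: the q-expansion of `F = eta(z)^2 eta(11 z)^2`
-/

open UpperHalfPlane hiding I
open Complex Filter Topology
open scoped Real

namespace Vale.Agent.P004H.H792

/-- the power series `q ∏ (1 - q^n)^2 (1 - q^(11 n))^2` -/
noncomputable def A11 : PowerSeries ℤ := PowerSeries.X * (EP ^ 2 * EP11 ^ 2)

/-- the coefficients of `F` -/
noncomputable def a (n : ℕ) : ℤ := A11.coeff n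

/-- `q = exp(2 π i z)` -/
noncomputable def qq (z : ℂ) : ℂ := cexp (2 * π * I * z)

theorem qq_ne (z : ℂ) : qq z ≠ 0 := exp_ne_zero _

theorem norm_qq (z : ℂ) : ‖qq z‖ = Real.exp (-(2 * π * z.im)) := by
  rw [qq, norm_exp]
  congr 1
  simp

theorem norm_qq_lt {z : ℂ} (hz : 0 < z.im) : ‖qq z‖ < 1 := by
  rw [norm_qq]
  rw [← Real.exp_zero]
  refine Real.exp_lt_exp.2 ?_
  have := mul_pos Real.pi_pos hz
  linarith

/-- the disc version of `F` -/
noncomputable def PF (q : ℂ) : ℂ :=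
  q * ((∏' n, (1 - q ^ (n + 1))) ^ 2 * (∏' n, (1 - (q ^ 11) ^ (n + 1))) ^ 2)

theorem Fc_eq_PF (z : ℂ) : Fc z = PF (qq z) := by
  have h1 : ∀ (w : ℂ) (n : ℕ), ModularForm.eta_q n w = qq w ^ (n + 1) := by
    intro w n
    rw [ModularForm.eta_q_eq_pow]
    rfl
  have h2 : ∀ w : ℂ, Function.Periodic.qParam 24 w ^ 2 = cexp (2 * π * I * w / 12) := by
    intro w
    simp only [Function.Periodic.qParam]
    rw [← exp_nat_mul]
    congr 1
    push_cast
    ring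
  have h3 : qq (11 * z) = qq z ^ 11 := by
    rw [qq, qq, ← exp_nat_mul]
    congr 1
    push_cast
    ring
  have h4 : cexp (2 * π * I * z / 12) * cexp (2 * π * I * (11 * z) / 12) = qq z := by
    rw [qq, ← exp_add]
    congr 1
    ring
  unfold Fc ModularForm.eta PF
  simp only [h1, h3, mul_pow]
  rw [h2, h2, ← h4]
  ring

theorem Ev.PF : Ev A11 PF := Ev.X.mul (Ev.EP.sq.mul Ev.EP11.sq)

/-- **the q-expansion of `F`** -/
theorem hasSum_Fc {z : ℂ} (hz : 0 < z.im) : HasSum (fun n : ℕ => (a n : ℂ) * qq z ^ n) (Fc z) := by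
  rw [Fc_eq_PF]
  exact Ev.PF _ (norm_qq_lt hz)

theorem hasSum_F (z : ℍ) : HasSum (fun n : ℕ => (a n : ℂ) * qq z ^ n) (F z) := hasSum_Fc z.2

/-! ### the first coefficients -/

theorem ec_pent (k : ℤ) : ec (pentagonal k) = Int.negOnePow k := by
  unfold ec
  exact PowerSeries.coeff_pentagonalSeries_pentagonal ℤ k

theorem ec_zero_of {n : ℕ} (h : ∀ k : ℤ, k * (3 * k - 1) ≠ 2 * n) : ec n = 0 := by
  refine PowerSeries.coeff_pentagonalSeries_eq_zero ℤ ?_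
  rintro ⟨k, rfl⟩
  exact h k (two_mul_natCast_pentagonal k).symm

theorem ec_table : ec 0 = 1 ∧ ec 1 = -1 ∧ ec 2 = -1 ∧ ec 3 = 0 ∧ ec 4 = 0 ∧ ec 5 = 1 ∧ ec 6 = 0 ∧
    ec 7 = 1 ∧ ec 8 = 0 ∧ ec 9 = 0 ∧ ec 10 = 0 ∧ ec 11 = 0 ∧ ec 12 = -1 := by
  have hb : ∀ (n : ℕ) (k : ℤ), n ≤ 12 → k * (3 * k - 1) = 2 * n → -3 ≤ k ∧ k ≤ 3 := by
    intro n k hn hk
    constructor <;> nlinarith
  have hz : ∀ n : ℕ, n ≤ 12 → (∀ k : ℤ, -3 ≤ k → k ≤ 3 → k * (3 * k - 1) ≠ 2 * n) → ec n = 0 :=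
    fun n hn h => ec_zero_of fun k hk => h k (hb n k hn hk).1 (hb n k hn hk).2 hk
  have hp : ∀ (k : ℤ) (n : ℕ) (e : ℤ), pentagonal k = n → (Int.negOnePow k : ℤ) = e → ec n = e :=
    fun k n e h1 h2 => by rw [← h1, ec_pent, h2]
  refine ⟨hp 0 _ _ (by decide) (by decide), hp 1 _ _ (by decide) (by decide),
    hp (-1) _ _ (by decide) (by decide), ?_, ?_, hp 2 _ _ (by decide) (by decide), ?_,
    hp (-2) _ _ (by decide) (by decide), ?_, ?_, ?_, ?_, hp 3 _ _ (by decide) (by decide)⟩ <;>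
  · refine hz _ (by norm_num) fun k h1 h2 => ?_
    interval_cases k <;> norm_num

theorem coeff_mul_range (p r : PowerSeries ℤ) (n : ℕ) :
    (p * r).coeff n = ∑ i ∈ Finset.range (n + 1), p.coeff i * r.coeff (n - i) := by
  rw [PowerSeries.coeff_mul]
  exact Finset.Nat.sum_antidiagonal_eq_sum_range_succ_mk _ n

theorem EP_coeff (n : ℕ) : EP.coeff n = ec n := rfl

theorem ep2_table : (EP ^ 2).coeff 0 = 1 ∧
    (EP ^ 2).coeff 1 = -2 ∧
    (EP ^ 2).coeff 2 = -1 ∧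
    (EP ^ 2).coeff 3 = 2 ∧
    (EP ^ 2).coeff 4 = 1 ∧
    (EP ^ 2).coeff 5 = 2 ∧
    (EP ^ 2).coeff 6 = -2 ∧
    (EP ^ 2).coeff 7 = 0 ∧
    (EP ^ 2).coeff 8 = -2 ∧
    (EP ^ 2).coeff 9 = -2 ∧
    (EP ^ 2).coeff 10 = 1 ∧
    (EP ^ 2).coeff 11 = 0 ∧
    (EP ^ 2).coeff 12 = 0 := by
  obtain ⟨h0, h1, h2, h3, h4, h5, h6, h7, h8, h9, h10, h11, h12⟩ := ec_table
  rw [pow_two]
  refine ⟨?_, ?_, ?_, ?_, ?_, ?_, ?_, ?_, ?_, ?_, ?_, ?_, ?_⟩ <;>
  · rw [coeff_mul_range]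
    simp only [Finset.sum_range_succ, Finset.sum_range_zero, EP_coeff, h0, h1, h2, h3, h4, h5, h6,
      h7, h8, h9, h10, h11, h12, Nat.reduceSub]
    norm_num

theorem EP11_small {n : ℕ} (h0 : n ≠ 0) (h : n < 11) : EP11.coeff n = 0 := by
  simp only [EP11, PowerSeries.coeff_mk]
  rw [if_neg]
  rintro ⟨k, rfl⟩
  omega

theorem ep11_table : EP11.coeff 0 = 1 ∧ EP11.coeff 11 = -1 ∧ EP11.coeff 12 = 0 := by
  obtain ⟨h0, h1, -⟩ := ec_table
  simp only [EP11, PowerSeries.coeff_mk, EP_coeff]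
  norm_num [h0, h1]

theorem ep112_table : (EP11 ^ 2).coeff 0 = 1 ∧ (∀ n, n ≠ 0 → n < 11 → (EP11 ^ 2).coeff n = 0) ∧
    (EP11 ^ 2).coeff 11 = -2 ∧ (EP11 ^ 2).coeff 12 = 0 := by
  obtain ⟨h0, h11, h12⟩ := ep11_table
  have e1 := EP11_small (n := 1) (by norm_num) (by norm_num)
  have e2 := EP11_small (n := 2) (by norm_num) (by norm_num)
  have e3 := EP11_small (n := 3) (by norm_num) (by norm_num)
  have e4 := EP11_small (n := 4) (by norm_num) (by norm_num)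
  have e5 := EP11_small (n := 5) (by norm_num) (by norm_num)
  have e6 := EP11_small (n := 6) (by norm_num) (by norm_num)
  have e7 := EP11_small (n := 7) (by norm_num) (by norm_num)
  have e8 := EP11_small (n := 8) (by norm_num) (by norm_num)
  have e9 := EP11_small (n := 9) (by norm_num) (by norm_num)
  have e10 := EP11_small (n := 10) (by norm_num) (by norm_num)
  rw [pow_two]
  refine ⟨?_, ?_, ?_, ?_⟩
  · rw [coeff_mul_range]
    simp [h0]
  · intro n hn h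
    rw [coeff_mul_range]
    refine Finset.sum_eq_zero fun i hi => ?_
    rw [Finset.mem_range] at hi
    by_cases hi0 : i = 0
    · subst hi0
      rw [Nat.sub_zero, EP11_small hn h, mul_zero]
    · rw [EP11_small hi0 (by omega), zero_mul]
  · rw [coeff_mul_range]
    simp only [Finset.sum_range_succ, Finset.sum_range_zero, h0, h11, e1, e2, e3, e4, e5, e6,
      e7, e8, e9, e10, Nat.reduceSub]
    norm_num
  · rw [coeff_mul_range]
    simp only [Finset.sum_range_succ, Finset.sum_range_zero, h0, h11, h12, e1, e2, e3, e4, e5, e6,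
      e7, e8, e9, e10, Nat.reduceSub]
    norm_num

theorem a_zero : a 0 = 0 := by
  rw [a, A11, PowerSeries.coeff_zero_X_mul]

theorem a_succ (n : ℕ) : a (n + 1) = (EP ^ 2 * EP11 ^ 2).coeff n := by
  rw [a, A11, PowerSeries.coeff_succ_X_mul]

/-- the first coefficients -/
theorem a_table : a 0 = 0 ∧ a 1 = 1 ∧
    a 2 = -2 ∧
    a 3 = -1 ∧
    a 4 = 2 ∧
    a 5 = 1 ∧
    a 6 = 2 ∧
    a 7 = -2 ∧
    a 8 = 0 ∧
    a 9 = -2 ∧
    a 10 = -2 ∧
    a 11 = 1 ∧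
    a 12 = -2 ∧
    a 13 = 4 := by
  obtain ⟨h0, h1, h2, h3, h4, h5, h6, h7, h8, h9, h10, h11, h12⟩ := ep2_table
  obtain ⟨g0, g, g11, g12⟩ := ep112_table
  have e1 := g 1 (by norm_num) (by norm_num)
  have e2 := g 2 (by norm_num) (by norm_num)
  have e3 := g 3 (by norm_num) (by norm_num)
  have e4 := g 4 (by norm_num) (by norm_num)
  have e5 := g 5 (by norm_num) (by norm_num)
  have e6 := g 6 (by norm_num) (by norm_num)
  have e7 := g 7 (by norm_num) (by norm_num)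
  have e8 := g 8 (by norm_num) (by norm_num)
  have e9 := g 9 (by norm_num) (by norm_num)
  have e10 := g 10 (by norm_num) (by norm_num)
  refine ⟨a_zero, ?_, ?_, ?_, ?_, ?_, ?_, ?_, ?_, ?_, ?_, ?_, ?_, ?_⟩ <;>
  · rw [a_succ, coeff_mul_range]
    simp only [Finset.sum_range_succ, Finset.sum_range_zero, h0, h1, h2, h3, h4, h5, h6,
      h7, h8, h9, h10, h11, h12, g0, g11, g12, e1, e2, e3, e4, e5, e6, e7, e8, e9, e10,
      Nat.reduceSub]
    norm_num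

theorem a_one : a 1 = 1 := a_table.2.1

end Vale.Agent.P004H.H792
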