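import Vale.Agent.P004H.H792.Rhs

/-!
# P004, `X_0(11)`: `Dat` for the Rankin-Selberg coefficients
-/

open Real MeasureTheory Set Filter Topology
open scoped ENNReal

namespace Vale.Agent.P004H.H792

open Vale.Agent.P004H.H392 Vale.Agent.P004H.H2

/-- the sum over `(n, m)` as a sum over `k = n² m` -/
theorem rearr {w : ℕ → ℝ} (hw : ∀ k, 0 ≤ w k) :
    ∑' n : ℕ, ∑' m : ℕ, ENNReal.ofReal ((a m : ℝ) ^ 2 / m * w ((n + 1) ^ 2 * m)) =
      ∑' k : ℕ, ENNReal.ofReal (ball a k * w k) := by
  set s : ℕ → ℕ → ℝ≥0∞ := fun n k => if n ^ 2 ∣ k then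
    ENNReal.ofReal ((a (k / n ^ 2) : ℝ) ^ 2 / ((k / n ^ 2 : ℕ) : ℝ) * w k) else 0 with hs
  have h1 : ∀ n : ℕ, ∑' m : ℕ, ENNReal.ofReal ((a m : ℝ) ^ 2 / m * w ((n + 1) ^ 2 * m)) =
      ∑' k : ℕ, s (n + 1) k := by
    intro n
    have hinj : Function.Injective (fun m : ℕ => (n + 1) ^ 2 * m) := fun u v h =>
      Nat.eq_of_mul_eq_mul_left (by positivity) h
    rw [← hinj.tsum_eq (f := s (n + 1))]
    · refine tsum_congr fun m => ?_
      simp only [hs]
      rw [if_pos (dvd_mul_right _ _), Nat.mul_div_cancel_left m (by positivity)]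
    · intro k hk
      rw [Function.mem_support] at hk
      by_cases h : (n + 1) ^ 2 ∣ k
      · obtain ⟨m, rfl⟩ := h
        exact ⟨m, rfl⟩
      · exact absurd (if_neg h) hk
  simp only [h1]
  rw [ENNReal.tsum_comm]
  refine tsum_congr fun k => ?_
  rcases Nat.eq_zero_or_pos k with rfl | hk
  · have h1 : ball a 0 = 0 := by simp [ball]
    rw [h1, zero_mul, ENNReal.ofReal_zero, ENNReal.tsum_eq_zero]
    intro n
    simp [hs]
  · rw [tsum_eq_sum (s := Finset.range k)]
    · have h2 : ball a k * w k = ∑ n ∈ Finset.range k,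
          if (n + 1) ^ 2 ∣ k then (a (k / (n + 1) ^ 2) : ℝ) ^ 2 / ((k / (n + 1) ^ 2 : ℕ) : ℝ) * w k
          else 0 := by
        unfold ball
        rw [Finset.sum_filter, Finset.sum_mul]
        refine Finset.sum_nbij' (fun n => n - 1) (fun n => n + 1) ?_ ?_ ?_ ?_ ?_
        · intro n hn
          rw [Finset.mem_Icc] at hn
          rw [Finset.mem_range]
          omega
        · intro n hn
          rw [Finset.mem_range] at hn
          rw [Finset.mem_Icc]
          omega
        · intro n hn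
          rw [Finset.mem_Icc] at hn
          exact Nat.sub_add_cancel hn.1
        · intro n _
          exact Nat.add_sub_cancel n 1
        · intro n hn
          rw [Finset.mem_Icc] at hn
          simp only [Nat.sub_add_cancel hn.1]
          split_ifs with h3
          · rfl
          · simp
      rw [h2, ENNReal.ofReal_sum_of_nonneg]
      · refine Finset.sum_congr rfl fun n _ => ?_
        simp only [hs]
        split_ifs with h3
        · rfl
        · simp
      · intro n _
        split_ifs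
        · exact mul_nonneg (by positivity) (hw k)
        · exact le_rfl
    · intro n hn
      rw [Finset.mem_range, not_lt] at hn
      simp only [hs]
      rw [if_neg]
      intro h
      have h1 := Nat.le_of_dvd hk h
      nlinarith

/-- summability of `a(m)² m^{-1-σ}` -/
theorem summ_a {σ : ℝ} (hσ : 1 < σ) :
    Summable fun m : ℕ => (a m : ℝ) ^ 2 / m * (m : ℝ) ^ (-σ) := by
  obtain ⟨C, hC, h⟩ := sq_sum
  have hO : (fun n : ℕ => ∑ k ∈ Finset.Icc 1 n, ‖(((a k : ℝ) ^ 2 : ℝ) : ℂ)‖) =O[atTop]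
      fun n => (n : ℝ) ^ (2 : ℝ) := by
    refine Asymptotics.IsBigO.of_bound C ?_
    filter_upwards [eventually_ge_atTop 1] with n hn
    have hn' : (1 : ℝ) ≤ n := by exact_mod_cast hn
    have h1 := h n hn'
    rw [Nat.floor_natCast] at h1
    have h2 : ∀ k : ℕ, ‖(((a k : ℝ) ^ 2 : ℝ) : ℂ)‖ = (a k : ℝ) ^ 2 := by
      intro k
      rw [Complex.norm_real, Real.norm_of_nonneg (by positivity)]
    simp only [h2]
    rw [Real.norm_of_nonneg (Finset.sum_nonneg fun _ _ => by positivity),
      Real.norm_of_nonneg (by positivity), Real.rpow_two]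
    exact h1
  have h3 := LSeriesSummable_of_sum_norm_bigO (f := fun k => (((a k : ℝ) ^ 2 : ℝ) : ℂ))
    (s := ((1 + σ : ℝ) : ℂ)) hO (by norm_num) (by rw [Complex.ofReal_re]; linarith)
  refine h3.norm.congr fun m => ?_
  rcases Nat.eq_zero_or_pos m with rfl | hm
  · simp
  · have hm' : (0 : ℝ) < m := by exact_mod_cast hm
    rw [LSeries.norm_term_eq, if_neg hm.ne', Complex.ofReal_re, Complex.norm_real,
      Real.norm_of_nonneg (by positivity), Real.rpow_add hm', Real.rpow_one, Real.rpow_neg hm'.le]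
    field_simp

theorem dat : Dat (ball a) where
  nonneg k := Finset.sum_nonneg fun n _ => by positivity
  zero := by simp [ball]
  summ σ hσ := by
    have hnn : ∀ k : ℕ, 0 ≤ ball a k := fun k => Finset.sum_nonneg fun n _ => by positivity
    have h1 := rearr (w := fun k : ℕ => (k : ℝ) ^ (-σ)) (fun k => by positivity)
    have h2 : ∑' n : ℕ, ∑' m : ℕ, ENNReal.ofReal ((a m : ℝ) ^ 2 / m *
        (((n + 1) ^ 2 * m : ℕ) : ℝ) ^ (-σ)) ≠ ⊤ := by
      have e : ∀ n m : ℕ, ENNReal.ofReal ((a m : ℝ) ^ 2 / m *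
          (((n + 1) ^ 2 * m : ℕ) : ℝ) ^ (-σ)) = ENNReal.ofReal ((((n + 1 : ℕ) : ℝ)) ^ (-(2 * σ))) *
          ENNReal.ofReal ((a m : ℝ) ^ 2 / m * (m : ℝ) ^ (-σ)) := by
        intro n m
        rw [← ENNReal.ofReal_mul (by positivity)]
        congr 1
        push_cast
        rw [Real.mul_rpow (by positivity) (by positivity), ← Real.rpow_natCast ((n : ℝ) + 1) 2,
          ← Real.rpow_mul (by positivity)]
        push_cast
        rw [show (2 : ℝ) * -σ = -(2 * σ) by ring]
        ring
      simp only [e]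
      simp only [ENNReal.tsum_mul_left]
      rw [ENNReal.tsum_mul_right]
      refine ENNReal.mul_ne_top ?_ ?_
      · have h3 : Summable fun n : ℕ => (((n + 1 : ℕ) : ℝ)) ^ (-(2 * σ)) :=
          (summable_nat_add_iff 1).2 (Real.summable_nat_rpow.2 (by linarith))
        exact h3.tsum_ofReal_ne_top
      · exact (summ_a hσ).tsum_ofReal_ne_top
    rw [h1] at h2
    have h4 := ENNReal.summable_toReal h2
    refine h4.congr fun k => ?_
    rw [ENNReal.toReal_ofReal (mul_nonneg (hnn k) (by positivity))]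

/-- **the right side, real form** -/
theorem rhs_Lam {t : ℝ} (ht : 0 < t) :
    ∑' n : ℕ, ∫⁻ y in Ioi (0 : ℝ), ENNReal.ofReal
      ((y ^ 2 * SS y + y ^ 2 / 11 * SS (y / 11)) / y ^ 2 *
        Real.exp (-(π * t * ((n : ℝ) + 1) ^ 2 / y))) = ENNReal.ofReal (Lam (ball a) t / 2) := by
  rw [rhs ht]
  unfold Lam
  rw [← tsum_div_const, ENNReal.ofReal_tsum_of_nonneg]
  · intro k
    have := term_nonneg dat k t
    positivity
  · exact (summable_Lam dat ht).div_const 2

end Vale.Agent.P004H.H792
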