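import Vale.Agent.P004H.H792.Pars

/-!
# P004, `X_0(11)`: the constant term of the sum over the twelve cosets
-/

open UpperHalfPlane hiding I
open Complex Filter Topology MeasureTheory Set
open scoped Real

namespace Vale.Agent.P004H.H792

/-- the sum of the eleven pieces -/
theorem sum_pieces {g : ℝ → ℝ} (hg : Continuous g) :
    ∑ j ∈ Finset.range 11, ∫ x in (0 : ℝ)..1, g ((x + j) / 11) = 11 * ∫ x in (0 : ℝ)..1, g x := by
  have h1 : ∀ j : ℕ, ∫ x in (0 : ℝ)..1, g ((x + j) / 11) =
      11 * ∫ x in ((j : ℝ) / 11)..((j + 1 : ℕ) : ℝ) / 11, g x := by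
    intro j
    rw [intervalIntegral.integral_comp_add_right (fun x => g (x / 11)) (j : ℝ),
      intervalIntegral.integral_comp_div g (by norm_num : (11 : ℝ) ≠ 0)]
    rw [smul_eq_mul]
    congr 2
    · rw [zero_add]
    · push_cast
      ring
  simp only [h1]
  rw [← Finset.mul_sum]
  congr 1
  have h2 := intervalIntegral.sum_integral_adjacent_intervals (μ := volume) (f := g)
    (a := fun j : ℕ => (j : ℝ) / 11) (n := 11) (fun j _ => hg.intervalIntegrable _ _)
  rw [h2]
  norm_num

/-- the coefficient sum -/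
noncomputable def SS (y : ℝ) : ℝ := ∑' n : ℕ, (a n : ℝ) ^ 2 * Real.exp (-(4 * π * n * y))

theorem cont_F {y : ℝ} (hy : 0 < y) : Continuous fun x : ℝ => ‖Fc (x + y * I)‖ ^ 2 := by
  refine continuous_iff_continuousAt.2 fun x => ?_
  have h8 : ContinuousAt Fc (x + y * I) := (Fc_diff (by simpa using hy)).continuousAt
  have h9 : ContinuousAt (fun x : ℝ => Fc (x + y * I)) x :=
    ContinuousAt.comp (f := fun x : ℝ => (x : ℂ) + y * I) h8 (by fun_prop)
  exact h9.norm.pow 2

/-- **the constant term of `H`** -/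
theorem meanH {y : ℝ} (hy : 0 < y) :
    ∫ x in (0 : ℝ)..1, (‖Fc (x + y * I)‖ ^ 2 * y ^ 2 +
      ∑ j ∈ Finset.range 11, ‖Fc ((x + y * I + j) / 11)‖ ^ 2 * (y / 11) ^ 2) =
      y ^ 2 * SS y + y ^ 2 / 11 * SS (y / 11) := by
  have hy11 : 0 < y / 11 := by positivity
  have h1 : ∀ (x : ℝ) (j : ℕ), ((x : ℂ) + y * I + j) / 11 = (((x + j) / 11 : ℝ) : ℂ) + (y / 11 : ℝ) * I := by
    intro x j
    push_cast
    ring
  simp only [h1]
  have hc : ∀ j : ℕ, Continuous fun x : ℝ =>
      ‖Fc ((((x + j) / 11 : ℝ) : ℂ) + (y / 11 : ℝ) * I)‖ ^ 2 := fun j =>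
    (cont_F hy11).comp (by fun_prop)
  rw [intervalIntegral.integral_add, intervalIntegral.integral_finsetSum,
    intervalIntegral.integral_mul_const, (pars hy).2]
  · simp only [intervalIntegral.integral_mul_const]
    rw [← Finset.sum_mul, sum_pieces (g := fun x : ℝ => ‖Fc (x + (y / 11 : ℝ) * I)‖ ^ 2)
      (cont_F hy11), (pars hy11).2]
    unfold SS
    ring
  · intro j _
    exact ((hc j).mul continuous_const).intervalIntegrable _ _
  · exact ((cont_F hy).mul continuous_const).intervalIntegrable _ _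
  · refine Continuous.intervalIntegrable ?_ _ _
    exact continuous_finsetSum _ fun j _ => (hc j).mul continuous_const

end Vale.Agent.P004H.H792
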