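import Mathlib

/-!
# P004, `X_0(11)`: the multiplier of `eta ^ 2`
-/

open UpperHalfPlane hiding I
open Complex Matrix.SpecialLinearGroup
open scoped Real MatrixGroups ModularForm

namespace Vale.Agent.P004H.H792

/-- the exponent of the multiplier of `eta ^ 2` -/
def psi (a b c d : ℤ) : ℤ := (1 - c ^ 2) * (b * d + 3 * (c - 1) * d + c + 3) + c * (a + d - 3)

theorem psiS3 : ∀ a b c d : ZMod 3, a * d - b * c = 1 →
    (1 - d ^ 2) * (-a * -c + 3 * (d - 1) * -c + d + 3) + d * (b + -c - 3) -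
      ((1 - c ^ 2) * (b * d + 3 * (c - 1) * d + c + 3) + c * (a + d - 3)) + 3 = 0 := by
  decide

theorem psiS4 : ∀ a b c d : ZMod 4, a * d - b * c = 1 →
    (1 - d ^ 2) * (-a * -c + 3 * (d - 1) * -c + d + 3) + d * (b + -c - 3) -
      ((1 - c ^ 2) * (b * d + 3 * (c - 1) * d + c + 3) + c * (a + d - 3)) + 3 = 0 := by
  decide

theorem psiT3 : ∀ a b c d : ZMod 3, a * d - b * c = 1 →
    (1 - c ^ 2) * ((a + b) * (c + d) + 3 * (c - 1) * (c + d) + c + 3) + c * (a + (c + d) - 3) -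
      ((1 - c ^ 2) * (b * d + 3 * (c - 1) * d + c + 3) + c * (a + d - 3)) - 1 = 0 := by
  decide

theorem psiT4 : ∀ a b c d : ZMod 4, a * d - b * c = 1 →
    (1 - c ^ 2) * ((a + b) * (c + d) + 3 * (c - 1) * (c + d) + c + 3) + c * (a + (c + d) - 3) -
      ((1 - c ^ 2) * (b * d + 3 * (c - 1) * d + c + 3) + c * (a + d - 3)) - 1 = 0 := by
  decide

theorem dvd12 {k : ℤ} (h3 : ((k : ℤ) : ZMod 3) = 0) (h4 : ((k : ℤ) : ZMod 4) = 0) :
    (12 : ℤ) ∣ k := by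
  have h5 : (3 : ℤ) ∣ k := by exact_mod_cast (ZMod.intCast_zmod_eq_zero_iff_dvd k 3).1 h3
  have h6 : (4 : ℤ) ∣ k := by exact_mod_cast (ZMod.intCast_zmod_eq_zero_iff_dvd k 4).1 h4
  omega

theorem psi_S {a b c d : ℤ} (h : a * d - b * c = 1) :
    (12 : ℤ) ∣ psi b (-a) d (-c) - psi a b c d + 3 := by
  apply dvd12
  · have h1 := psiS3 a b c d (by exact_mod_cast congrArg (Int.cast : ℤ → ZMod 3) h)
    rw [← h1]
    simp only [psi]
    push_cast
    rfl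
  · have h1 := psiS4 a b c d (by exact_mod_cast congrArg (Int.cast : ℤ → ZMod 4) h)
    rw [← h1]
    simp only [psi]
    push_cast
    rfl

theorem psi_T {a b c d : ℤ} (h : a * d - b * c = 1) :
    (12 : ℤ) ∣ psi a (a + b) c (c + d) - psi a b c d - 1 := by
  apply dvd12
  · have h1 := psiT3 a b c d (by exact_mod_cast congrArg (Int.cast : ℤ → ZMod 3) h)
    rw [← h1]
    simp only [psi]
    push_cast
    rfl
  · have h1 := psiT4 a b c d (by exact_mod_cast congrArg (Int.cast : ℤ → ZMod 4) h)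
    rw [← h1]
    simp only [psi]
    push_cast
    rfl

/-- `exp (2 π i / 12)` -/
noncomputable def zt : ℂ := cexp (2 * π * I / 12)

theorem zt_ne : zt ≠ 0 := exp_ne_zero _

theorem zt_zpow (k : ℤ) : zt ^ k = cexp (2 * π * I * k / 12) := by
  rw [zt, ← exp_int_mul]
  congr 1
  ring

theorem zt_pow12 : zt ^ (12 : ℤ) = 1 := by
  rw [zt_zpow]
  push_cast
  rw [show 2 * (π : ℂ) * I * 12 / 12 = 2 * π * I by ring, exp_two_pi_mul_I]

theorem zt_neg3 : zt ^ (-3 : ℤ) = -I := by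
  rw [zt_zpow]
  push_cast
  rw [show 2 * (π : ℂ) * I * -3 / 12 = -(π / 2 * I) by ring, exp_neg, exp_pi_div_two_mul_I, inv_I]

theorem zt_congr {k l : ℤ} (h : (12 : ℤ) ∣ k - l) : zt ^ k = zt ^ l := by
  obtain ⟨m, hm⟩ := h
  rw [show k = l + 12 * m by omega, zpow_add₀ zt_ne, zpow_mul, zt_pow12, one_zpow, mul_one]

/-- `eta (z) ^ 2` -/
noncomputable def ee (z : ℂ) : ℂ := ModularForm.eta z ^ 2

theorem eta_add_one (z : ℂ) :
    ModularForm.eta (z + 1) = cexp (2 * π * I / 24) * ModularForm.eta z := by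
  unfold ModularForm.eta
  rw [← mul_assoc]
  congr 1
  · simp only [Function.Periodic.qParam]
    rw [← exp_add]
    congr 1
    push_cast
    ring
  · refine tprod_congr fun n => ?_
    simp only [ModularForm.eta_q, Function.Periodic.qParam]
    congr 2
    rw [show 2 * (π : ℂ) * I * (z + 1) / ((1 : ℝ) : ℂ) = 2 * π * I * z / ((1 : ℝ) : ℂ) + 2 * π * I by
      push_cast; ring, exp_add, exp_two_pi_mul_I, mul_one]

theorem ee_T (z : ℂ) : ee (z + 1) = zt * ee z := by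
  unfold ee
  rw [eta_add_one, mul_pow, zt, ← exp_nat_mul]
  congr 2
  push_cast
  ring

theorem ee_S {z : ℂ} (hz : 0 < z.im) : ee (-1 / z) = -I * z * ee z := by
  have h := ModularForm.eta_comp_eq_csqrt_I_inv (show z ∈ upperHalfPlaneSet from hz)
  simp only [Function.comp_apply, Pi.smul_apply, Pi.mul_apply, smul_eq_mul] at h
  unfold ee
  rw [h]
  have h1 : ∀ w : ℂ, sqrt w ^ 2 = w := by
    intro w
    rw [sqrt]
    exact cpow_nat_inv_pow w two_ne_zero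
  rw [mul_pow, mul_pow, inv_pow, h1, h1, inv_I]
  ring

/-- the transformation law of `eta ^ 2` -/
def Tr (g : SL(2, ℤ)) : Prop := ∀ z : ℂ, 0 < z.im →
  ee (((g 0 0 : ℤ) * z + (g 0 1 : ℤ)) / ((g 1 0 : ℤ) * z + (g 1 1 : ℤ))) =
    zt ^ psi (g 0 0) (g 0 1) (g 1 0) (g 1 1) * ((g 1 0 : ℤ) * z + (g 1 1 : ℤ)) * ee z

theorem den_ne (g : SL(2, ℤ)) {z : ℂ} (hz : 0 < z.im) :
    ((g 1 0 : ℤ) : ℂ) * z + (g 1 1 : ℤ) ≠ 0 := by
  intro h
  have h1 := congrArg Complex.im h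
  simp only [add_im, mul_im, intCast_re, intCast_im, zero_mul, add_zero, zero_im,
    mul_eq_zero, Int.cast_eq_zero] at h1
  rcases h1 with h1 | h1
  · rw [h1] at h
    simp only [Int.cast_zero, zero_mul, zero_add, Int.cast_eq_zero] at h
    have h2 := g.det_coe
    rw [Matrix.det_fin_two, h1, h] at h2
    norm_num at h2
  · exact hz.ne' h1

theorem im_S {z : ℂ} (hz : 0 < z.im) : 0 < (-1 / z).im := by
  rw [neg_div, one_div, neg_im, inv_im, neg_div, neg_neg]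
  have h0 : z ≠ 0 := by
    rintro rfl
    simp at hz
  exact div_pos hz (normSq_pos.2 h0)

theorem im_ne {z : ℂ} (hz : 0 < z.im) : z ≠ 0 := by
  rintro rfl
  simp at hz

theorem det_eq (g : SL(2, ℤ)) : g 0 0 * g 1 1 - g 0 1 * g 1 0 = 1 := by
  have h2 := g.det_coe
  rw [Matrix.det_fin_two] at h2
  exact h2

theorem tr_one : Tr 1 := by
  intro z _
  simp [psi, zt]

theorem mulS (g : SL(2, ℤ)) : (g * ModularGroup.S) 0 0 = g 0 1 ∧
    (g * ModularGroup.S) 0 1 = -g 0 0 ∧ (g * ModularGroup.S) 1 0 = g 1 1 ∧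
    (g * ModularGroup.S) 1 1 = -g 1 0 := by
  simp [Matrix.SpecialLinearGroup.coe_mul, ModularGroup.coe_S, Matrix.mul_apply,
    Fin.sum_univ_two]

theorem mulT (g : SL(2, ℤ)) : (g * ModularGroup.T) 0 0 = g 0 0 ∧
    (g * ModularGroup.T) 0 1 = g 0 0 + g 0 1 ∧ (g * ModularGroup.T) 1 0 = g 1 0 ∧
    (g * ModularGroup.T) 1 1 = g 1 0 + g 1 1 := by
  simp [Matrix.SpecialLinearGroup.coe_mul, ModularGroup.coe_T, Matrix.mul_apply,
    Fin.sum_univ_two]

theorem mulTi (g : SL(2, ℤ)) : (g * ModularGroup.T⁻¹) 0 0 = g 0 0 ∧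
    (g * ModularGroup.T⁻¹) 0 1 = -g 0 0 + g 0 1 ∧ (g * ModularGroup.T⁻¹) 1 0 = g 1 0 ∧
    (g * ModularGroup.T⁻¹) 1 1 = -g 1 0 + g 1 1 := by
  simp [Matrix.SpecialLinearGroup.coe_mul, Matrix.mul_apply, Fin.sum_univ_two]

theorem tr_S {g : SL(2, ℤ)} (h : Tr g) : Tr (g * ModularGroup.S) := by
  intro z hz
  obtain ⟨h1, h2, h3, h4⟩ := mulS g
  have h0 := im_ne hz
  have h5 := h (-1 / z) (im_S hz)
  have h6 := den_ne g (im_S hz)
  have h7 := den_ne (g * ModularGroup.S) hz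
  rw [ee_S hz] at h5
  rw [h1, h2, h3, h4] at *
  rw [show zt ^ psi (g 0 1) (-g 0 0) (g 1 1) (-g 1 0) =
    zt ^ psi (g 0 0) (g 0 1) (g 1 0) (g 1 1) * zt ^ (-3 : ℤ) by
      rw [← zpow_add₀ zt_ne]
      exact zt_congr (by have := psi_S (det_eq g); omega), zt_neg3]
  rw [show (((g 0 1 : ℤ) : ℂ) * z + (-g 0 0 : ℤ)) / (((g 1 1 : ℤ) : ℂ) * z + (-g 1 0 : ℤ)) =
    ((g 0 0 : ℤ) * (-1 / z) + (g 0 1 : ℤ)) / ((g 1 0 : ℤ) * (-1 / z) + (g 1 1 : ℤ)) by
      rw [div_eq_div_iff h7 h6]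
      push_cast
      field_simp
      ring]
  rw [h5]
  push_cast
  field_simp
  ring

theorem tr_T {g : SL(2, ℤ)} (h : Tr g) : Tr (g * ModularGroup.T) := by
  intro z hz
  obtain ⟨h1, h2, h3, h4⟩ := mulT g
  have h5 := h (z + 1) (by simpa using hz)
  rw [ee_T] at h5
  rw [h1, h2, h3, h4]
  rw [show zt ^ psi (g 0 0) (g 0 0 + g 0 1) (g 1 0) (g 1 0 + g 1 1) =
    zt ^ psi (g 0 0) (g 0 1) (g 1 0) (g 1 1) * zt ^ (1 : ℤ) by
      rw [← zpow_add₀ zt_ne]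
      exact zt_congr (by have := psi_T (det_eq g); omega), zpow_one]
  push_cast
  rw [show ((g 0 0 : ℤ) : ℂ) * z + ((g 0 0 : ℤ) + (g 0 1 : ℤ)) = (g 0 0 : ℤ) * (z + 1) + (g 0 1 : ℤ)
    by ring, show ((g 1 0 : ℤ) : ℂ) * z + ((g 1 0 : ℤ) + (g 1 1 : ℤ)) =
    (g 1 0 : ℤ) * (z + 1) + (g 1 1 : ℤ) by ring, h5]
  ring

theorem tr_Ti {g : SL(2, ℤ)} (h : Tr g) : Tr (g * ModularGroup.T⁻¹) := by
  intro z hz
  obtain ⟨h1, h2, h3, h4⟩ := mulTi g
  have h5 := h (z - 1) (by simpa using hz)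
  have h6 := ee_T (z - 1)
  rw [sub_add_cancel] at h6
  have h7 := psi_T (det_eq (g * ModularGroup.T⁻¹))
  rw [h1, h2, h3, h4] at *
  rw [show g 0 0 + (-g 0 0 + g 0 1) = g 0 1 by ring, show g 1 0 + (-g 1 0 + g 1 1) = g 1 1 by ring]
    at h7
  rw [h6, show zt ^ psi (g 0 0) (-g 0 0 + g 0 1) (g 1 0) (-g 1 0 + g 1 1) =
    zt ^ psi (g 0 0) (g 0 1) (g 1 0) (g 1 1) * zt ^ (-1 : ℤ) by
      rw [← zpow_add₀ zt_ne]
      exact zt_congr (by omega), zpow_neg_one]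
  push_cast
  rw [show ((g 0 0 : ℤ) : ℂ) * z + (-(g 0 0 : ℤ) + (g 0 1 : ℤ)) =
    (g 0 0 : ℤ) * (z - 1) + (g 0 1 : ℤ)
    by ring, show ((g 1 0 : ℤ) : ℂ) * z + (-(g 1 0 : ℤ) + (g 1 1 : ℤ)) =
    (g 1 0 : ℤ) * (z - 1) + (g 1 1 : ℤ) by ring, h5]
  have h8 := zt_ne
  field_simp

/-- **the transformation law of `eta ^ 2`** -/
theorem tr_all (g : SL(2, ℤ)) : Tr g := by
  have hg : g ∈ Subgroup.closure {ModularGroup.S, ModularGroup.T} := by
    rw [SpecialLinearGroup.SL2Z_generators]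
    trivial
  induction hg using Subgroup.closure_induction_right with
  | one => exact tr_one
  | mul_right x hx y hy ih =>
    rcases hy with rfl | rfl
    · exact tr_S ih
    · exact tr_T ih
  | mul_inv_cancel x hx y hy ih =>
    rcases hy with rfl | rfl
    · have h1 : (ModularGroup.S)⁻¹ = ModularGroup.S * ModularGroup.S * ModularGroup.S := by
        decide
      rw [h1, ← mul_assoc, ← mul_assoc]
      exact tr_S (tr_S (tr_S ih))
    · exact tr_Ti ih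

end Vale.Agent.P004H.H792
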