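import Vale.Agent.P004H.H792.Cusp11

/-!
# P004, `X_0(11)`: Parseval for `F`
-/

open UpperHalfPlane hiding I
open Complex Filter Topology MeasureTheory Set
open scoped Real

namespace Vale.Agent.P004H.H792

theorem int_exp (n : ℤ) :
    ∫ x in (0 : ℝ)..1, cexp (2 * π * I * n * x) = if n = 0 then 1 else 0 := by
  by_cases hn : n = 0
  · simp [hn]
  · rw [if_neg hn]
    have hc : (2 * π * I * n : ℂ) ≠ 0 :=
      mul_ne_zero two_pi_I_ne_zero (Int.cast_ne_zero.2 hn)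
    rw [integral_exp_mul_complex hc]
    have h1 : cexp (2 * π * I * n * ((1 : ℝ) : ℂ)) = 1 := by
      rw [show 2 * (π : ℂ) * I * n * ((1 : ℝ) : ℂ) = n * (2 * π * I) by push_cast; ring]
      exact exp_int_mul_two_pi_mul_I n
    rw [h1]
    simp

/-- **Parseval** for an absolutely convergent exponential sum -/
theorem pars_gen {c : ℕ → ℝ} (hc : Summable fun n => |c n|) :
    Summable (fun n => c n ^ 2) ∧
      ∫ x in (0 : ℝ)..1, ‖∑' n : ℕ, (c n : ℂ) * cexp (2 * π * I * n * x)‖ ^ 2 =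
        ∑' n, c n ^ 2 := by
  have hsq : Summable (fun n => c n ^ 2) := by
    have h1 : Summable fun p : ℕ × ℕ => |c p.1| * |c p.2| := hc.mul_of_nonneg hc
      (fun _ => abs_nonneg _) (fun _ => abs_nonneg _)
    have h2 := h1.comp_injective (i := fun n : ℕ => (n, n)) (fun a b h => (Prod.mk.inj h).1)
    refine h2.congr fun n => ?_
    simp only [Function.comp_apply]
    rw [← abs_mul, abs_of_nonneg (mul_self_nonneg _), pow_two]
  refine ⟨hsq, ?_⟩
  -- the double series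
  set G : ℕ × ℕ → ℝ → ℂ := fun p x =>
    ((c p.1 * c p.2 : ℝ) : ℂ) * cexp (2 * π * I * ((p.1 : ℤ) - (p.2 : ℤ) : ℤ) * x) with hG
  have hnorm : ∀ (m : ℤ) (x : ℝ), ‖cexp (2 * π * I * m * x)‖ = 1 := by
    intro m x
    rw [norm_exp]
    simp
  have hGn : ∀ p x, ‖G p x‖ = |c p.1 * c p.2| := by
    intro p x
    simp only [hG]
    rw [norm_mul, hnorm, mul_one, norm_real, Real.norm_eq_abs]
  have hs1 : ∀ x : ℝ, Summable fun n : ℕ => ‖(c n : ℂ) * cexp (2 * π * I * n * x)‖ := by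
    intro x
    refine hc.congr fun n => ?_
    have h := hnorm n x
    push_cast at h
    rw [norm_mul, h, mul_one, norm_real, Real.norm_eq_abs]
  have hpt : ∀ x : ℝ, ((‖∑' n : ℕ, (c n : ℂ) * cexp (2 * π * I * n * x)‖ ^ 2 : ℝ) : ℂ) =
      ∑' p, G p x := by
    intro x
    have h1 : ∑' n : ℕ, (c n : ℂ) * cexp (-(2 * π * I * n * x)) =
        (starRingEnd ℂ) (∑' n : ℕ, (c n : ℂ) * cexp (2 * π * I * n * x)) := by
      rw [conj_tsum]
      refine tsum_congr fun n => ?_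
      rw [map_mul, conj_ofReal, ← exp_conj]
      congr 2
      simp only [map_mul, conj_ofReal, conj_I, map_natCast, map_ofNat]
      ring
    have hs2 : Summable fun n : ℕ => ‖(c n : ℂ) * cexp (-(2 * π * I * n * x))‖ := by
      refine hc.congr fun n => ?_
      have h := hnorm (-n) x
      push_cast at h
      rw [show 2 * (π : ℂ) * I * -(n : ℂ) * x = -(2 * π * I * n * x) by ring] at h
      rw [norm_mul, h, mul_one, norm_real, Real.norm_eq_abs]
    rw [← normSq_eq_norm_sq, ← mul_conj, ← h1, tsum_mul_tsum_of_summable_norm (hs1 x) hs2]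
    refine tsum_congr fun p => ?_
    simp only [hG]
    push_cast
    rw [show 2 * (π : ℂ) * I * ((p.1 : ℂ) - p.2) * x =
      2 * π * I * p.1 * x + -(2 * π * I * p.2 * x) by ring, exp_add]
    ring
  have hint : ∀ p, ∫ x in (0 : ℝ)..1, G p x = if p.1 = p.2 then ((c p.1 ^ 2 : ℝ) : ℂ) else 0 := by
    intro p
    simp only [hG]
    rw [intervalIntegral.integral_const_mul, int_exp]
    by_cases h : p.1 = p.2
    · rw [if_pos h, if_pos (by rw [h, sub_self]), mul_one, h, pow_two]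
    · rw [if_neg h, if_neg (by omega), mul_zero]
  have hsum : HasSum (fun p => ∫ x in (0 : ℝ)..1, G p x) (∫ x in (0 : ℝ)..1, ∑' p, G p x) := by
    simp only [intervalIntegral.integral_of_le (zero_le_one' ℝ)]
    refine hasSum_integral_of_summable_integral_norm (fun p => ?_) ?_
    · have hcont : Continuous (G p) := by
        simp only [hG]
        fun_prop
      exact (hcont.integrableOn_Icc).mono_set Ioc_subset_Icc_self
    · simp only [hGn]
      have h1 : Summable fun p : ℕ × ℕ => |c p.1| * |c p.2| := hc.mul_of_nonneg hc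
        (fun _ => abs_nonneg _) (fun _ => abs_nonneg _)
      refine h1.congr fun p => ?_
      simp [abs_mul]
  have htot : ∫ x in (0 : ℝ)..1, ∑' p, G p x = ((∑' n, c n ^ 2 : ℝ) : ℂ) := by
    rw [← hsum.tsum_eq]
    simp only [hint]
    have hinj : Function.Injective (fun n : ℕ => (n, n)) := fun a b h => (Prod.mk.inj h).1
    rw [← hinj.tsum_eq]
    · simp only [if_true]
      rw [ofReal_tsum]
    · intro p hp
      rw [Function.mem_support] at hp
      by_cases h : p.1 = p.2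
      · exact ⟨p.1, Prod.ext rfl h⟩
      · exact absurd (if_neg h) hp
  have hfin : ((∫ x in (0 : ℝ)..1, ‖∑' n : ℕ, (c n : ℂ) * cexp (2 * π * I * n * x)‖ ^ 2 : ℝ) : ℂ) =
      ((∑' n, c n ^ 2 : ℝ) : ℂ) := by
    rw [← htot, ← intervalIntegral.integral_ofReal]
    refine intervalIntegral.integral_congr fun x _ => ?_
    exact hpt x
  exact_mod_cast hfin

theorem norm_term (n : ℕ) (x y : ℝ) : (a n : ℂ) * qq (x + y * I) ^ n =
    (((a n : ℝ) * Real.exp (-(2 * π * n * y)) : ℝ) : ℂ) * cexp (2 * π * I * n * x) := by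
  rw [qq, ← exp_nat_mul]
  push_cast
  rw [mul_assoc (a n : ℂ) (cexp (-(2 * π * n * y))) _, ← exp_add]
  congr 2
  linear_combination (2 * π * n * y) * I_sq

theorem summable_abs {y : ℝ} (hy : 0 < y) :
    Summable fun n : ℕ => |(a n : ℝ) * Real.exp (-(2 * π * n * y))| := by
  have h := (hasSum_Fc (z := (0 : ℝ) + y * I) (by simpa using hy)).summable.norm
  refine h.congr fun n => ?_
  rw [norm_term, ofReal_zero, mul_zero, exp_zero, mul_one, norm_real, Real.norm_eq_abs]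

theorem Fc_exp {y : ℝ} (hy : 0 < y) (x : ℝ) : Fc (x + y * I) =
    ∑' n : ℕ, (((a n : ℝ) * Real.exp (-(2 * π * n * y)) : ℝ) : ℂ) * cexp (2 * π * I * n * x) := by
  rw [← (hasSum_Fc (z := x + y * I) (by simpa using hy)).tsum_eq]
  exact tsum_congr fun n => norm_term n x y

/-- **Parseval** -/
theorem pars {y : ℝ} (hy : 0 < y) :
    Summable (fun n : ℕ => (a n : ℝ) ^ 2 * Real.exp (-(4 * π * n * y))) ∧
      ∫ x in (0 : ℝ)..1, ‖Fc (x + y * I)‖ ^ 2 =
        ∑' n : ℕ, (a n : ℝ) ^ 2 * Real.exp (-(4 * π * n * y)) := by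
  obtain ⟨h1, h2⟩ := pars_gen (summable_abs hy)
  have h3 : ∀ n : ℕ, ((a n : ℝ) * Real.exp (-(2 * π * n * y))) ^ 2 =
      (a n : ℝ) ^ 2 * Real.exp (-(4 * π * n * y)) := by
    intro n
    rw [mul_pow, ← Real.exp_nat_mul]
    congr 2
    push_cast
    ring
  simp only [h3] at h1 h2
  refine ⟨h1, ?_⟩
  rw [← h2]
  refine intervalIntegral.integral_congr fun x _ => ?_
  rw [Fc_exp hy]

/-- `|F z| ≤ C / Im z` -/
theorem F_bound : ∃ C : ℝ, 0 < C ∧ ∀ z : ℂ, 0 < z.im → ‖Fc z‖ ≤ C / z.im := by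
  obtain ⟨C, hC⟩ := CuspFormClass.exists_bound F11
  refine ⟨max C 1, lt_of_lt_of_le one_pos (le_max_right _ _), fun z hz => ?_⟩
  have h := hC ⟨z, hz⟩
  rw [F11_apply, F_eq] at h
  have h2 : ((2 : ℤ) : ℝ) / 2 = 1 := by norm_num
  rw [h2, Real.rpow_one] at h
  exact h.trans (div_le_div_of_nonneg_right (le_max_left _ _) hz.le)

/-- **`∑_{n ≤ X} a(n)² ≤ C X²`** -/
theorem sq_sum : ∃ C : ℝ, 0 < C ∧ ∀ X : ℝ, 1 ≤ X →
    ∑ n ∈ Finset.Icc 1 ⌊X⌋₊, (a n : ℝ) ^ 2 ≤ C * X ^ 2 := by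
  obtain ⟨C, hC, h⟩ := F_bound
  refine ⟨Real.exp (4 * π) * C ^ 2, by positivity, fun X hX => ?_⟩
  have hX0 : 0 < X := by linarith
  have hy : 0 < 1 / X := by positivity
  obtain ⟨h1, h2⟩ := pars hy
  have h3 : ∫ x in (0 : ℝ)..1, ‖Fc (x + (1 / X : ℝ) * I)‖ ^ 2 ≤ (C * X) ^ 2 := by
    have h4 : ∀ x : ℝ, ‖Fc (x + (1 / X : ℝ) * I)‖ ^ 2 ≤ (C * X) ^ 2 := by
      intro x
      have him : ((x : ℂ) + (1 / X : ℝ) * I).im = 1 / X := by simp
      have h5 := h (x + (1 / X : ℝ) * I) (by rw [him]; exact hy)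
      rw [him] at h5
      have h6 : C / (1 / X) = C * X := by field_simp
      rw [h6] at h5
      exact pow_le_pow_left₀ (norm_nonneg _) h5 2
    have h7 : ∫ x in (0 : ℝ)..1, ‖Fc (x + (1 / X : ℝ) * I)‖ ^ 2 ≤
        ∫ x in (0 : ℝ)..1, (C * X) ^ 2 := by
      refine intervalIntegral.integral_mono_on zero_le_one ?_ (by simp) fun x _ => h4 x
      refine ContinuousOn.intervalIntegrable fun x _ => ContinuousAt.continuousWithinAt ?_
      have h8 : ContinuousAt Fc (x + (1 / X : ℝ) * I) :=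
        (Fc_diff (by simpa using hX0)).continuousAt
      have h9 : ContinuousAt (fun x : ℝ => Fc (x + (1 / X : ℝ) * I)) x :=
        ContinuousAt.comp (f := fun x : ℝ => (x : ℂ) + (1 / X : ℝ) * I) h8 (by fun_prop)
      exact h9.norm.pow 2
    simpa using h7
  have h10 : ∑ n ∈ Finset.Icc 1 ⌊X⌋₊, (a n : ℝ) ^ 2 * Real.exp (-(4 * π * n * (1 / X))) ≤
      (C * X) ^ 2 := by
    refine le_trans ?_ h3
    rw [h2]
    exact h1.sum_le_tsum _ fun n _ => by positivity
  have h11 : ∑ n ∈ Finset.Icc 1 ⌊X⌋₊, (a n : ℝ) ^ 2 * Real.exp (-(4 * π)) ≤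
      ∑ n ∈ Finset.Icc 1 ⌊X⌋₊, (a n : ℝ) ^ 2 * Real.exp (-(4 * π * n * (1 / X))) := by
    refine Finset.sum_le_sum fun n hn => ?_
    rw [Finset.mem_Icc] at hn
    have h12 : (n : ℝ) ≤ X := (Nat.le_floor_iff hX0.le).1 hn.2
    have h13 : (n : ℝ) * (1 / X) ≤ 1 := by
      rw [mul_one_div, div_le_one hX0]
      exact h12
    refine mul_le_mul_of_nonneg_left (Real.exp_le_exp.2 ?_) (by positivity)
    have h14 := Real.pi_pos
    nlinarith
  rw [← Finset.sum_mul] at h11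
  have h15 : Real.exp (4 * π) * Real.exp (-(4 * π)) = 1 := by
    rw [← Real.exp_add, add_neg_cancel, Real.exp_zero]
  calc ∑ n ∈ Finset.Icc 1 ⌊X⌋₊, (a n : ℝ) ^ 2
      = Real.exp (4 * π) * ((∑ n ∈ Finset.Icc 1 ⌊X⌋₊, (a n : ℝ) ^ 2) * Real.exp (-(4 * π))) := by
        rw [mul_comm (∑ n ∈ Finset.Icc 1 ⌊X⌋₊, (a n : ℝ) ^ 2), ← mul_assoc, h15, one_mul]
    _ ≤ Real.exp (4 * π) * (C * X) ^ 2 :=
        mul_le_mul_of_nonneg_left (h11.trans h10) (Real.exp_pos _).le
    _ = Real.exp (4 * π) * C ^ 2 * X ^ 2 := by ring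

end Vale.Agent.P004H.H792
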