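import Vale.Agent.P004H.H792.MeanH
import Vale.Agent.P004H.H392.RS2
import Vale.Agent.P004H.H2.Rem11

/-!
# P004, `X_0(11)`: the right side of the unfolded integral
-/

open Real MeasureTheory Set Filter Topology
open scoped ENNReal

namespace Vale.Agent.P004H.H792

open Vale.Agent.P004H.H392 Vale.Agent.P004H.H2

/-- the integral of one term -/
theorem kerI {α c : ℝ} (hα : 0 < α) (hc : 0 ≤ c) :
    IntegrableOn (fun y : ℝ => Real.exp (-(4 * π * α * y) - π * c / y)) (Ioi 0) ∧
      ∫ y in Ioi (0 : ℝ), Real.exp (-(4 * π * α * y) - π * c / y) = H392.W (α * c) / (2 * α) := by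
  have e : ∀ y : ℝ, y ∈ Ioi (0 : ℝ) →
      wi (α * c) (α * y) = Real.exp (-(4 * π * α * y) - π * c / y) := by
    intro y hy
    have hy' : y ≠ 0 := (mem_Ioi.1 hy).ne'
    unfold wi
    congr 1
    field_simp
  have h1 : IntegrableOn (wi (α * c)) (Ioi (α * 0)) := by
    rw [mul_zero]
    exact integrable_wi (by positivity)
  have h2 := (integrableOn_Ioi_comp_mul_left_iff (wi (α * c)) 0 hα).2 h1
  refine ⟨h2.congr_fun e measurableSet_Ioi, ?_⟩
  rw [← setIntegral_congr_fun measurableSet_Ioi e, integral_comp_mul_left_Ioi _ 0 hα, mul_zero,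
    W_eq, smul_eq_mul]
  field_simp

theorem lker {α c : ℝ} (hα : 0 < α) (hc : 0 ≤ c) :
    ∫⁻ y in Ioi (0 : ℝ), ENNReal.ofReal (Real.exp (-(4 * π * α * y) - π * c / y)) =
      ENNReal.ofReal (H392.W (α * c) / (2 * α)) := by
  obtain ⟨h1, h2⟩ := kerI hα hc
  rw [← h2, ofReal_integral_eq_lintegral_ofReal h1]
  exact Eventually.of_forall fun y => (Real.exp_pos _).le

/-- the weight -/
noncomputable def ww (t : ℝ) (k : ℕ) : ℝ := H392.W (k * t) + H392.W (k * t / 11)

theorem ww_nonneg (t : ℝ) (k : ℕ) : 0 ≤ ww t k := add_nonneg (H392.W_nonneg _) (H392.W_nonneg _)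

/-- one pair `(n, m)`, `N = n ^ 2` -/
noncomputable def tm (t : ℝ) (N m : ℕ) : ℝ := (a m : ℝ) ^ 2 / m * ww t (N * m) / 2

theorem tm_nonneg (t : ℝ) (N m : ℕ) : 0 ≤ tm t N m := by
  have := ww_nonneg t (N * m)
  unfold tm
  positivity

theorem int_N {t : ℝ} (ht : 0 < t) {N : ℕ} (hN : 0 < N) :
    ∫⁻ y in Ioi (0 : ℝ), ENNReal.ofReal ((y ^ 2 * SS y + y ^ 2 / 11 * SS (y / 11)) / y ^ 2 *
      Real.exp (-(π * t * N / y))) = ∑' m : ℕ, ENNReal.ofReal (tm t N m) := by
  have hN' : (0 : ℝ) < N := by exact_mod_cast hN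
  have e1 : ∀ y ∈ Ioi (0 : ℝ), ENNReal.ofReal ((y ^ 2 * SS y + y ^ 2 / 11 * SS (y / 11)) / y ^ 2 *
      Real.exp (-(π * t * N / y))) = ∑' m : ℕ, (ENNReal.ofReal ((a m : ℝ) ^ 2 *
        Real.exp (-(4 * π * m * y) - π * (t * N) / y)) +
        ENNReal.ofReal ((a m : ℝ) ^ 2 / 11 *
          Real.exp (-(4 * π * (m / 11) * y) - π * (t * N) / y))) := by
    intro y hy
    have hy0 : 0 < y := hy
    have hs1 := (pars hy0).1
    have hs2 := (pars (show 0 < y / 11 by positivity)).1
    have h1 : (y ^ 2 * SS y + y ^ 2 / 11 * SS (y / 11)) / y ^ 2 * Real.exp (-(π * t * N / y)) =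
        ∑' m : ℕ, ((a m : ℝ) ^ 2 * Real.exp (-(4 * π * m * y)) * Real.exp (-(π * t * N / y)) +
          (a m : ℝ) ^ 2 * Real.exp (-(4 * π * m * (y / 11))) * (1 / 11 *
            Real.exp (-(π * t * N / y)))) := by
      rw [(hs1.mul_right _).tsum_add (hs2.mul_right _), tsum_mul_right, tsum_mul_right]
      unfold SS
      field_simp
    rw [h1, ENNReal.ofReal_tsum_of_nonneg (fun m => by positivity)
      ((hs1.mul_right _).add (hs2.mul_right _))]
    refine tsum_congr fun m => ?_
    rw [ENNReal.ofReal_add (by positivity) (by positivity)]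
    congr 2
    · rw [mul_assoc, ← Real.exp_add]
      congr 2
      ring
    · rw [show (a m : ℝ) ^ 2 * Real.exp (-(4 * π * m * (y / 11))) * (1 / 11 *
        Real.exp (-(π * t * N / y))) = (a m : ℝ) ^ 2 / 11 *
          (Real.exp (-(4 * π * m * (y / 11))) * Real.exp (-(π * t * N / y))) by ring,
        ← Real.exp_add]
      congr 2
      ring
  rw [setLIntegral_congr_fun measurableSet_Ioi e1, lintegral_tsum]
  · refine tsum_congr fun m => ?_
    rcases Nat.eq_zero_or_pos m with rfl | hm
    · simp [a_zero, tm]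
    · have hm' : (0 : ℝ) < m := by exact_mod_cast hm
      rw [lintegral_add_left (by fun_prop)]
      have e2 : ∀ y : ℝ, ENNReal.ofReal ((a m : ℝ) ^ 2 *
          Real.exp (-(4 * π * m * y) - π * (t * N) / y)) = ENNReal.ofReal ((a m : ℝ) ^ 2) *
          ENNReal.ofReal (Real.exp (-(4 * π * m * y) - π * (t * N) / y)) := fun y =>
        ENNReal.ofReal_mul (by positivity)
      have e3 : ∀ y : ℝ, ENNReal.ofReal ((a m : ℝ) ^ 2 / 11 *
          Real.exp (-(4 * π * (m / 11) * y) - π * (t * N) / y)) =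
          ENNReal.ofReal ((a m : ℝ) ^ 2 / 11) *
          ENNReal.ofReal (Real.exp (-(4 * π * (m / 11) * y) - π * (t * N) / y)) := fun y =>
        ENNReal.ofReal_mul (by positivity)
      simp only [e2, e3]
      rw [lintegral_const_mul _ (by fun_prop), lintegral_const_mul _ (by fun_prop),
        lker hm' (by positivity), lker (by positivity) (by positivity),
        ← ENNReal.ofReal_mul (by positivity), ← ENNReal.ofReal_mul (by positivity),
        ← ENNReal.ofReal_add]
      · congr 1
        unfold tm ww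
        push_cast
        rw [show (m : ℝ) * (t * N) = N * m * t by ring,
          show (m : ℝ) / 11 * (t * N) = N * m * t / 11 by ring]
        field_simp
      · have := H392.W_nonneg (m * (t * N))
        positivity
      · have := H392.W_nonneg (m / 11 * (t * N))
        positivity
  · intro m
    fun_prop

theorem tm_zero (t : ℝ) (N : ℕ) : tm t N 0 = 0 := by simp [tm]

/-- one `k`, one `n` -/
noncomputable def sk (t : ℝ) (n k : ℕ) : ℝ≥0∞ :=
  if n ^ 2 ∣ k then ENNReal.ofReal (tm t (n ^ 2) (k / n ^ 2)) else 0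

theorem sum_m (t : ℝ) {n : ℕ} (hn : 0 < n) :
    ∑' m : ℕ, ENNReal.ofReal (tm t (n ^ 2) m) = ∑' k : ℕ, sk t n k := by
  have hinj : Function.Injective (fun m : ℕ => n ^ 2 * m) := fun u v h =>
    Nat.eq_of_mul_eq_mul_left (by positivity) h
  rw [← hinj.tsum_eq (f := sk t n)]
  · refine tsum_congr fun m => ?_
    simp only [sk]
    rw [if_pos (dvd_mul_right _ _), Nat.mul_div_cancel_left m (by positivity)]
  · intro k hk
    rw [Function.mem_support] at hk
    by_cases h : n ^ 2 ∣ k
    · obtain ⟨m, rfl⟩ := h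
      exact ⟨m, rfl⟩
    · exact absurd (if_neg h) hk

theorem sum_n (t : ℝ) (k : ℕ) : ∑' n : ℕ, sk t (n + 1) k =
    ENNReal.ofReal (ball a k * ww t k / 2) := by
  rcases Nat.eq_zero_or_pos k with rfl | hk
  · have h1 : ball a 0 = 0 := by simp [ball]
    rw [h1, zero_mul, zero_div, ENNReal.ofReal_zero, ENNReal.tsum_eq_zero]
    intro n
    simp [sk, tm_zero]
  · rw [tsum_eq_sum (s := Finset.range k)]
    · have h2 : ball a k * ww t k / 2 = ∑ n ∈ Finset.range k,
          if (n + 1) ^ 2 ∣ k then tm t ((n + 1) ^ 2) (k / (n + 1) ^ 2) else 0 := by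
        unfold ball
        rw [Finset.sum_filter, Finset.sum_mul, Finset.sum_div]
        refine Finset.sum_nbij' (fun n => n - 1) (fun n => n + 1) ?_ ?_ ?_ ?_ ?_
        · intro n hn
          rw [Finset.mem_Icc] at hn
          rw [Finset.mem_range]
          omega
        · intro n hn
          rw [Finset.mem_range] at hn
          rw [Finset.mem_Icc]
          omega
        · intro n hn
          rw [Finset.mem_Icc] at hn
          exact Nat.sub_add_cancel hn.1
        · intro n _
          exact Nat.add_sub_cancel n 1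
        · intro n hn
          rw [Finset.mem_Icc] at hn
          simp only [Nat.sub_add_cancel hn.1]
          split_ifs with h3
          · unfold tm
            have h4 : n ^ 2 * (k / n ^ 2) = k := Nat.mul_div_cancel' h3
            rw [h4]
          · simp
      rw [h2, ENNReal.ofReal_sum_of_nonneg]
      · refine Finset.sum_congr rfl fun n _ => ?_
        simp only [sk]
        split_ifs with h3
        · rfl
        · simp
      · intro n _
        split_ifs
        · exact tm_nonneg _ _ _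
        · exact le_rfl
    · intro n hn
      rw [Finset.mem_range, not_lt] at hn
      simp only [sk]
      rw [if_neg]
      intro h
      have h1 := Nat.le_of_dvd hk h
      nlinarith

/-- **the right side, in `ENNReal`** -/
theorem rhs {t : ℝ} (ht : 0 < t) :
    ∑' n : ℕ, ∫⁻ y in Ioi (0 : ℝ), ENNReal.ofReal
      ((y ^ 2 * SS y + y ^ 2 / 11 * SS (y / 11)) / y ^ 2 *
        Real.exp (-(π * t * ((n : ℝ) + 1) ^ 2 / y))) =
      ∑' k : ℕ, ENNReal.ofReal (ball a k * (H392.W (k * t) + H392.W (k * t / 11)) / 2) := by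
  have h1 : ∀ n : ℕ, ∫⁻ y in Ioi (0 : ℝ), ENNReal.ofReal
      ((y ^ 2 * SS y + y ^ 2 / 11 * SS (y / 11)) / y ^ 2 *
        Real.exp (-(π * t * ((n : ℝ) + 1) ^ 2 / y))) = ∑' k : ℕ, sk t (n + 1) k := by
    intro n
    rw [← sum_m t (Nat.succ_pos n), ← int_N ht (N := (n + 1) ^ 2) (by positivity)]
    push_cast
    rfl
  simp only [h1]
  rw [ENNReal.tsum_comm]
  exact tsum_congr fun k => sum_n t k

end Vale.Agent.P004H.H792
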